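import Vale.Agent.H13.ED.Count

/-! `N(B_1, 6 P°) ≤ N(P, B_∞)^8` for solid convex compact `P`. -/

namespace Vale.Agent.H13.ED

open Pointwise Finset Classical

variable {n : ℕ}

/-- Claim A -/
theorem two_pow_le {P : Set (Fin n → ℝ)} (hS : Solid P) {s : Finset (Fin n → ℝ)}
    (hs : Covers P (cube n) s) {y : Fin n → ℝ} (hy : y ∈ P) (J : Finset (Fin n))
    (hJ : ∀ i ∈ J, 2 < |y i|) : 2 ^ J.card ≤ s.card := by
  rw [covers_iff] at hs
  rw [← Finset.card_powerset]
  let f : Finset (Fin n) → (Fin n → ℝ) := fun A i =>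
    if i ∈ J then (if i ∈ A then 2 else -2) else 0
  have hf : ∀ A, f A ∈ P := by
    intro A
    apply hS y hy
    intro i
    dsimp only [f]
    split_ifs with h1 h2
    · have := hJ i h1
      rw [abs_of_pos (by norm_num : (0:ℝ) < 2)]
      exact this.le
    · have := hJ i h1
      rw [abs_neg, abs_of_pos (by norm_num : (0:ℝ) < 2)]
      exact this.le
    · simp
  choose g hg1 hg2 using fun A => hs (f A) (hf A)
  apply Finset.card_le_card_of_injOn g
  · intro A _
    exact hg1 A
  · intro A hA B hB hAB
    have hA' := Finset.mem_powerset.1 hA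
    have hB' := Finset.mem_powerset.1 hB
    by_contra hne
    have : ∃ i ∈ J, ¬ (i ∈ A ↔ i ∈ B) := by
      by_contra hcon
      push Not at hcon
      apply hne
      ext i
      by_cases hi : i ∈ J
      · exact hcon i hi
      · constructor
        · intro h
          exact absurd (hA' h) hi
        · intro h
          exact absurd (hB' h) hi
    obtain ⟨i, hi, hAB'⟩ := this
    have h1 := hg2 A i
    have h2 := hg2 B i
    rw [← hAB] at h2
    simp only [Pi.sub_apply] at h1 h2
    dsimp only [f] at h1 h2
    simp only [hi, if_true] at h1 h2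
    rw [abs_le] at h1 h2
    by_cases hiA : i ∈ A
    · have hiB : i ∉ B := fun h => hAB' ⟨fun _ => h, fun _ => hiA⟩
      simp only [hiA, hiB, if_true, if_false] at h1 h2
      linarith [h1.1, h1.2, h2.1, h2.2]
    · have hiB : i ∈ B := by
        by_contra h
        exact hAB' ⟨fun h' => absurd h' hiA, fun h' => absurd h' h⟩
      simp only [hiA, hiB, if_true, if_false] at h1 h2
      linarith [h1.1, h1.2, h2.1, h2.2]

/-- Claim C -/
theorem prod_le {P : Set (Fin n → ℝ)} (hS : Solid P) {s : Finset (Fin n → ℝ)}
    (hs : Covers P (cube n) s) {y : Fin n → ℝ} (hy : y ∈ P) (hy0 : ∀ i, 0 ≤ y i)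
    (J : Finset (Fin n)) : ∏ i ∈ J, (⌊2 * y i / 3⌋₊ + 1) ≤ s.card := by
  rw [covers_iff] at hs
  let T : Finset (Fin n → ℕ) := Fintype.piFinset
    (fun i => if i ∈ J then Finset.range (⌊2 * y i / 3⌋₊ + 1) else {0})
  have hT : T.card = ∏ i ∈ J, (⌊2 * y i / 3⌋₊ + 1) := by
    dsimp only [T]
    rw [Fintype.card_piFinset]
    rw [← Finset.prod_subset (Finset.subset_univ J)]
    · apply Finset.prod_congr rfl
      intro i hi
      simp [hi]
    · intro i _ hi
      simp [hi]
  rw [← hT]
  let f : (Fin n → ℕ) → (Fin n → ℝ) := fun q i => if i ∈ J then -y i + 3 * q i else 0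
  have hf : ∀ q ∈ T, f q ∈ P := by
    intro q hq
    rw [Fintype.mem_piFinset] at hq
    apply hS y hy
    intro i
    dsimp only [f]
    split_ifs with h1
    · have := hq i
      simp only [h1, if_true, Finset.mem_range] at this
      have h2 : q i ≤ ⌊2 * y i / 3⌋₊ := by omega
      have h3 : (q i : ℝ) ≤ 2 * y i / 3 := by
        have h4 : (q i : ℝ) ≤ (⌊2 * y i / 3⌋₊ : ℝ) := by exact_mod_cast h2
        have h5 := Nat.floor_le (show 0 ≤ 2 * y i / 3 by have := hy0 i; positivity)
        linarith
      rw [abs_of_nonneg (hy0 i), abs_le]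
      have h6 : (0:ℝ) ≤ q i := by positivity
      constructor <;> linarith
    · simp
  have hex : ∀ q : Fin n → ℕ, ∃ c : Fin n → ℝ, q ∈ T → (c ∈ s ∧ f q - c ∈ cube n) := by
    intro q
    by_cases hq : q ∈ T
    · obtain ⟨c, hc1, hc2⟩ := hs (f q) (hf q hq)
      exact ⟨c, fun _ => ⟨hc1, hc2⟩⟩
    · exact ⟨0, fun h => absurd h hq⟩
  choose g hg using hex
  apply Finset.card_le_card_of_injOn g
  · intro q hq
    exact (hg q hq).1
  · intro q hq q' hq' hqq
    by_contra hne
    have : ∃ i, q i ≠ q' i := by
      by_contra hcon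
      push Not at hcon
      exact hne (funext hcon)
    obtain ⟨i, hi⟩ := this
    have h1 := (hg q hq).2 i
    have h2 := (hg q' hq').2 i
    rw [← hqq] at h2
    have hiJ : i ∈ J := by
      by_contra h
      have h3 := (Fintype.mem_piFinset.1 hq) i
      have h4 := (Fintype.mem_piFinset.1 hq') i
      simp only [h, if_false, Finset.mem_singleton] at h3 h4
      exact hi (by rw [h3, h4])
    simp only [Pi.sub_apply] at h1 h2
    dsimp only [f] at h1 h2
    simp only [hiJ, if_true] at h1 h2
    rw [abs_le] at h1 h2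
    rcases Nat.lt_or_gt_of_ne hi with h | h
    · have h5 : (q i : ℝ) + 1 ≤ q' i := by exact_mod_cast h
      linarith [h1.1, h1.2, h2.1, h2.2]
    · have h5 : (q' i : ℝ) + 1 ≤ q i := by exact_mod_cast h
      linarith [h1.1, h1.2, h2.1, h2.2]

/-- Claim B -/
theorem cover_supported {P : Set (Fin n → ℝ)} (hS : Solid P) (hconv : Convex ℝ P)
    (hcomp : IsCompact P) (hne : P.Nonempty) {s : Finset (Fin n → ℝ)}
    (hs : Covers P (cube n) s) (J : Finset (Fin n)) :
    ∃ sJ : Finset (Fin n → ℝ), sJ.card ≤ 36 ^ J.card * s.card ∧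
      ∀ x : Fin n → ℝ, (∀ i, i ∉ J → x i = 0) → ∑ i, |x i| ≤ 1 →
        ∃ c ∈ sJ, x - c ∈ polar P := by
  rcases J.eq_empty_or_nonempty with hJ | hJ
  · refine ⟨{0}, ?_, ?_⟩
    · rw [hJ]
      simp only [Finset.card_singleton, Finset.card_empty, pow_zero, one_mul]
      obtain ⟨y, hy⟩ := hne
      rw [covers_iff] at hs
      obtain ⟨c, hc, -⟩ := hs y hy
      exact Finset.card_pos.2 ⟨c, hc⟩
    · intro x hx _
      refine ⟨0, Finset.mem_singleton_self _, ?_⟩
      intro y _
      have : ∀ i, x i = 0 := fun i => hx i (by rw [hJ]; simp)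
      simp [this]
  · set k := J.card with hk
    have hk0 : 0 < k := hJ.card_pos
    have hkR : (0:ℝ) < k := by exact_mod_cast hk0
    set u : Fin n → ℝ := fun i => if i ∈ J then 1 / (k:ℝ) else 0 with hu
    have hu0 : ∀ i, 0 ≤ u i := by
      intro i
      rw [hu]
      dsimp only
      split_ifs
      · positivity
      · exact le_refl _
    have hu1 : ∑ i, u i ≤ 1 := by
      rw [hu]
      simp only [Finset.sum_ite_mem, Finset.univ_inter, Finset.sum_const, nsmul_eq_mul]
      rw [← hk]
      field_simp
      exact le_refl _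
    obtain ⟨y0, hy0P, hy0, hvar⟩ := variational hS hconv hcomp hne u hu0 hu1
    have hT : ∀ i, 0 < 1 + y0 i := fun i => by linarith [hy0 i]
    set z : Fin n → ℝ := fun i => u i / (1 + y0 i) with hz
    have hz0 : ∀ i, 0 ≤ z i := fun i => div_nonneg (hu0 i) (hT i).le
    have hzJ : ∀ i ∈ J, 0 < z i := by
      intro i hi
      rw [hz, hu]
      dsimp only
      rw [if_pos hi]
      have := hT i
      positivity
    let A : Finset (Fin n → ℤ) := (Fintype.piFinset
      (fun i => if i ∈ J then Finset.Icc (-(k : ℤ)) k else {0})).filter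
        (fun a => ∑ i, (a i).natAbs ≤ k)
    let Λ : Finset (Fin n → ℤ) := Fintype.piFinset
      (fun i => if i ∈ J then Finset.Icc (-⌊1 + y0 i⌋) ⌊1 + y0 i⌋ else {0})
    have hA : A.card ≤ 2 ^ k * 3 ^ J.card := by
      apply count_l1
      · intro a ha i hi
        have := Fintype.mem_piFinset.1 (Finset.mem_filter.1 ha).1 i
        simpa [hi] using this
      · intro a ha
        exact (Finset.mem_filter.1 ha).2
    have hΛ : Λ.card ≤ 6 ^ k * s.card := by
      have h1 : Λ.card = ∏ i ∈ J, (2 * ⌊1 + y0 i⌋ + 1).toNat := by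
        dsimp only [Λ]
        rw [Fintype.card_piFinset]
        rw [← Finset.prod_subset (Finset.subset_univ J)]
        · apply Finset.prod_congr rfl
          intro i hi
          simp only [hi, if_true, Int.card_Icc]
          congr 1
          ring
        · intro i _ hi
          simp [hi]
      have h2 : ∀ i ∈ J, (2 * ⌊1 + y0 i⌋ + 1).toNat ≤ 6 * (⌊2 * y0 i / 3⌋₊ + 1) := by
        intro i _
        rw [Int.toNat_le]
        have h3 : (⌊1 + y0 i⌋ : ℝ) ≤ 1 + y0 i := Int.floor_le _
        have h4 : 2 * y0 i / 3 < (⌊2 * y0 i / 3⌋₊ : ℝ) + 1 := Nat.lt_floor_add_one _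
        have h5 : (2 * (⌊1 + y0 i⌋ : ℝ) + 1) ≤ 6 * ((⌊2 * y0 i / 3⌋₊ : ℝ) + 1) := by
          have h6 : (0:ℝ) ≤ ⌊2 * y0 i / 3⌋₊ := by positivity
          linarith
        have h7 : ((2 * ⌊1 + y0 i⌋ + 1 : ℤ) : ℝ) ≤ ((6 * (⌊2 * y0 i / 3⌋₊ + 1) : ℕ) : ℤ) := by
          push_cast
          exact h5
        exact_mod_cast h7
      rw [h1]
      calc ∏ i ∈ J, (2 * ⌊1 + y0 i⌋ + 1).toNat
          ≤ ∏ i ∈ J, (6 * (⌊2 * y0 i / 3⌋₊ + 1)) := Finset.prod_le_prod' h2
        _ = 6 ^ k * ∏ i ∈ J, (⌊2 * y0 i / 3⌋₊ + 1) := by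
            rw [Finset.prod_mul_distrib, Finset.prod_const]
        _ ≤ 6 ^ k * s.card := Nat.mul_le_mul_left _ (prod_le hS hs hy0P hy0 J)
    let F : (Fin n → ℤ) × (Fin n → ℤ) → (Fin n → ℝ) :=
      fun q i => (q.1 i : ℝ) / k + (q.2 i : ℝ) * z i
    refine ⟨(A ×ˢ Λ).image F, ?_, ?_⟩
    · calc ((A ×ˢ Λ).image F).card ≤ (A ×ˢ Λ).card := Finset.card_image_le
        _ = A.card * Λ.card := Finset.card_product _ _
        _ ≤ (2 ^ k * 3 ^ J.card) * (6 ^ k * s.card) := Nat.mul_le_mul hA hΛ
        _ = 36 ^ k * s.card := by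
            rw [← hk, show (36:ℕ) = 2 * 3 * 6 by norm_num, mul_pow, mul_pow]
            ring
    · intro x hxJ hx1
      set a : Fin n → ℤ := fun i => tr (k * x i) with ha
      set e : Fin n → ℝ := fun i => x i - a i / k with he
      set l : Fin n → ℤ := fun i => tr (e i / z i) with hl
      have hazero : ∀ i, i ∉ J → a i = 0 := by
        intro i hi
        rw [ha]
        dsimp only
        rw [hxJ i hi, mul_zero]
        simp [tr]
      have habs : ∀ i, |(a i : ℝ)| ≤ k * |x i| := by
        intro i
        have := tr_abs_le (k * x i)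
        rw [abs_mul, abs_of_pos hkR] at this
        exact this
      have hsum : ∑ i, (a i).natAbs ≤ k := by
        have h1 : (∑ i, ((a i).natAbs : ℝ)) ≤ k := by
          calc (∑ i, ((a i).natAbs : ℝ)) = ∑ i, |(a i : ℝ)| := by
                apply Finset.sum_congr rfl
                intro i _
                rw [Nat.cast_natAbs, Int.cast_abs]
            _ ≤ ∑ i, (k:ℝ) * |x i| := Finset.sum_le_sum (fun i _ => habs i)
            _ = k * ∑ i, |x i| := by rw [Finset.mul_sum]
            _ ≤ k * 1 := mul_le_mul_of_nonneg_left hx1 hkR.le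
            _ = k := mul_one _
        exact_mod_cast h1
      have heabs : ∀ i, |e i| ≤ 1 / k := by
        intro i
        have := tr_sub_abs_le (k * x i)
        have h2 : e i = (k * x i - a i) / k := by
          rw [he]
          field_simp
        rw [h2, abs_div, abs_of_pos hkR]
        apply div_le_div_of_nonneg_right this hkR.le
      have hamem : a ∈ A := by
        rw [Finset.mem_filter]
        refine ⟨?_, hsum⟩
        rw [Fintype.mem_piFinset]
        intro i
        split_ifs with hi
        · have h2 : (a i).natAbs ≤ k :=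
            le_trans (Finset.single_le_sum (f := fun i => (a i).natAbs)
              (fun _ _ => Nat.zero_le _) (Finset.mem_univ i)) hsum
          rw [Finset.mem_Icc]
          omega
        · rw [Finset.mem_singleton]
          exact hazero i hi
      have hezero : ∀ i, i ∉ J → e i = 0 := by
        intro i hi
        rw [he]
        dsimp only
        rw [hxJ i hi, hazero i hi]
        simp
      have hlmem : l ∈ Λ := by
        rw [Fintype.mem_piFinset]
        intro i
        split_ifs with hi
        · have h1 : |(l i : ℝ)| ≤ 1 + y0 i := by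
            refine le_trans (tr_abs_le _) ?_
            rw [abs_div, abs_of_pos (hzJ i hi), div_le_iff₀ (hzJ i hi)]
            refine le_trans (heabs i) ?_
            have h2 : (1 + y0 i) * z i = 1 / k := by
              rw [hz, hu]
              dsimp only
              rw [if_pos hi]
              have := (hT i).ne'
              field_simp
            rw [h2]
          rw [abs_le] at h1
          rw [Finset.mem_Icc]
          constructor
          · have h2 : -(1 + y0 i) ≤ (l i : ℝ) := h1.1
            have h3 : ((-l i : ℤ) : ℝ) ≤ 1 + y0 i := by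
              push_cast
              linarith
            have := Int.le_floor.2 h3
            linarith
          · exact Int.le_floor.2 h1.2
        · rw [Finset.mem_singleton, hl]
          dsimp only
          rw [hezero i hi]
          simp [tr]
      refine ⟨F (a, l), Finset.mem_image_of_mem _ (Finset.mem_product.2 ⟨hamem, hlmem⟩), ?_⟩
      apply mem_polar_of_abs (w := z)
      · intro y hy
        have := hvar y hy
        calc ∑ i, |y i| * z i = ∑ i, u i / (1 + y0 i) * |y i| := by
              apply Finset.sum_congr rfl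
              intro i _
              rw [hz]
              ring
          _ ≤ 1 := this
      · intro i
        have h1 : (x - F (a, l)) i = e i - l i * z i := by
          dsimp only [F, Pi.sub_apply]
          rw [he]
          ring
        rw [h1]
        by_cases hi : i ∈ J
        · have h2 := tr_sub_abs_le (e i / z i)
          have h3 : e i - l i * z i = (e i / z i - l i) * z i := by
            have := (hzJ i hi).ne'
            field_simp
          rw [h3, abs_mul, abs_of_pos (hzJ i hi)]
          calc _ ≤ 1 * z i := mul_le_mul_of_nonneg_right h2 (hzJ i hi).le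
            _ = z i := one_mul _
        · have h2 : l i = 0 := by
            rw [hl]
            dsimp only
            rw [hezero i hi]
            simp [tr]
          rw [hezero i hi, h2]
          simp
          exact hz0 i

theorem core1 {P : Set (Fin n → ℝ)} (hS : Solid P) (hconv : Convex ℝ P)
    (hcomp : IsCompact P) (hne : P.Nonempty) {s : Finset (Fin n → ℝ)}
    (hs : Covers P (cube n) s) :
    ∃ s' : Finset (Fin n → ℝ), s'.card ≤ s.card ^ 8 ∧ Covers (cross n) ((6:ℝ) • polar P) s' := by
  let J : (Fin n → ℝ) → Finset (Fin n) := fun v => Finset.univ.filter (fun i => 3 < |v i|)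
  have hB := fun v => cover_supported hS hconv hcomp hne hs (J v)
  choose sJ hsJ1 hsJ2 using hB
  set s1 := s.filter (fun v => ∃ y ∈ P, y - v ∈ cube n) with hs1
  have hMpos : 1 ≤ s.card := by
    obtain ⟨y, hy⟩ := hne
    rw [covers_iff] at hs
    obtain ⟨c, hc, -⟩ := hs y hy
    exact Finset.card_pos.2 ⟨c, hc⟩
  have hcardv : ∀ v ∈ s1, (sJ v).card ≤ s.card ^ 7 := by
    intro v hv
    rw [hs1, Finset.mem_filter] at hv
    obtain ⟨-, y, hy, hyv⟩ := hv
    have h1 : 2 ^ (J v).card ≤ s.card := by
      apply two_pow_le hS hs hy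
      intro i hi
      have h2 : 3 < |v i| := by simpa [J] using hi
      have h3 := hyv i
      simp only [Pi.sub_apply] at h3
      have h4 : |v i| ≤ |y i - v i| + |y i| := by
        have := abs_sub_abs_le_abs_sub (v i) (y i)
        rw [abs_sub_comm] at this
        linarith
      linarith
    calc (sJ v).card ≤ 36 ^ (J v).card * s.card := hsJ1 v
      _ ≤ 64 ^ (J v).card * s.card :=
          Nat.mul_le_mul_right _ (Nat.pow_le_pow_left (by norm_num) _)
      _ = (2 ^ (J v).card) ^ 6 * s.card := by
          rw [← pow_mul, mul_comm (J v).card 6, pow_mul]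
          norm_num
      _ ≤ s.card ^ 6 * s.card := Nat.mul_le_mul_right _ (Nat.pow_le_pow_left h1 _)
      _ = s.card ^ 7 := by ring
  refine ⟨s1.biUnion sJ, ?_, ?_⟩
  · calc (s1.biUnion sJ).card ≤ ∑ v ∈ s1, (sJ v).card := Finset.card_biUnion_le
      _ ≤ ∑ v ∈ s1, s.card ^ 7 := Finset.sum_le_sum hcardv
      _ = s1.card * s.card ^ 7 := by rw [Finset.sum_const, smul_eq_mul]
      _ ≤ s.card * s.card ^ 7 := Nat.mul_le_mul_right _ (Finset.card_filter_le _ _)
      _ = s.card ^ 8 := by ring
  · rw [covers_iff]
    intro x hx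
    have hx1 : ∑ i, |x i| ≤ 1 := hx
    obtain ⟨y0, hy0P, hy0, hvar⟩ := variational hS hconv hcomp hne (fun i => |x i|)
      (fun i => abs_nonneg _) hx1
    rw [covers_iff] at hs
    obtain ⟨v, hv, hyv⟩ := hs y0 hy0P
    have hv1 : v ∈ s1 := by
      rw [hs1, Finset.mem_filter]
      exact ⟨hv, y0, hy0P, hyv⟩
    set xJ : Fin n → ℝ := fun i => if i ∈ J v then x i else 0 with hxJ
    have h1 : ∑ i, |xJ i| ≤ 1 := by
      refine le_trans (Finset.sum_le_sum ?_) hx1
      intro i _
      rw [hxJ]
      dsimp only
      split_ifs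
      · exact le_refl _
      · simp
    obtain ⟨c, hc, hxc⟩ := hsJ2 v xJ (fun i hi => by rw [hxJ]; simp [hi]) h1
    refine ⟨c, Finset.mem_biUnion.2 ⟨v, hv1, hc⟩, ?_⟩
    rw [mem_smul_polar (by norm_num)]
    intro y hy
    have h2 := hxc y hy
    have h3 := hvar y hy
    have h4 : ∑ i, y i * (x - c) i = ∑ i, y i * (xJ - c) i + ∑ i, y i * (x i - xJ i) := by
      rw [← Finset.sum_add_distrib]
      apply Finset.sum_congr rfl
      intro i _
      simp only [Pi.sub_apply]
      ring
    rw [h4]
    have h5 : ∑ i, y i * (x i - xJ i) ≤ 5 * ∑ i, |x i| / (1 + y0 i) * |y i| := by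
      rw [Finset.mul_sum]
      apply Finset.sum_le_sum
      intro i _
      have hpos : 0 < 1 + y0 i := by linarith [hy0 i]
      rw [hxJ]
      dsimp only
      split_ifs with hi
      · simp only [sub_self, mul_zero]
        have := abs_nonneg (x i)
        have := abs_nonneg (y i)
        positivity
      · have hv3 : |v i| ≤ 3 := by
          by_contra h
          push Not at h
          exact hi (by simp [J, h])
        have h6 := hyv i
        simp only [Pi.sub_apply] at h6
        have h7 : y0 i ≤ 4 := by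
          rw [abs_le] at h6 hv3
          linarith [h6.2, hv3.2]
        have h8 : |x i| ≤ 5 * (|x i| / (1 + y0 i)) := by
          rw [mul_div_assoc', le_div_iff₀ hpos]
          nlinarith [abs_nonneg (x i)]
        calc y i * (x i - 0) ≤ |y i * (x i - 0)| := le_abs_self _
          _ = |x i| * |y i| := by rw [sub_zero, abs_mul, mul_comm]
          _ ≤ 5 * (|x i| / (1 + y0 i)) * |y i| := mul_le_mul_of_nonneg_right h8 (abs_nonneg _)
          _ = _ := by ring
    linarith

end Vale.Agent.H13.ED
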