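import Mathlib

/-! Information weights on a finite simplicial complex (down-closed family of finite sets). -/

namespace Vale.Agent.H13.ED

open Finset

variable {α : Type*} [DecidableEq α]

theorem sqrt_ineq {p : ℝ} (h0 : 0 ≤ p) (h1 : p ≤ 1 / 2) : Real.sqrt (1 - p) + p ^ 2 ≤ 1 := by
  have h : Real.sqrt (1 - p) ≤ 1 - p / 2 := by
    rw [show (1 - p / 2) = Real.sqrt ((1 - p / 2) ^ 2) from
      (Real.sqrt_sq (by linarith)).symm]
    apply Real.sqrt_le_sqrt
    nlinarith
  nlinarith

/-- Information weights. -/
theorem info (G : Finset α) : ∀ (𝒥 : Finset (Finset α)), (∀ J ∈ 𝒥, J ⊆ G) →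
    (∀ J ∈ 𝒥, ∀ J' ⊆ J, J' ∈ 𝒥) → 𝒥.Nonempty →
    ∃ I : Finset α → α → ℝ, (∀ J i, 0 ≤ I J i) ∧
      (∀ J' : Finset α, ∑ J ∈ 𝒥, Real.exp (∑ i ∈ J ∩ J', I J i) ≤ 𝒥.card * 2 ^ J'.card) ∧
      ∑ J ∈ 𝒥, Real.exp (-(3 / 2) * ∑ i ∈ J, I J i) ≤ Real.sqrt 𝒥.card := by
  induction G using Finset.induction_on with
  | empty =>
    intro 𝒥 h1 h2 h3
    have h𝒥 : 𝒥 = {∅} := by
      apply Finset.eq_singleton_iff_nonempty_unique_mem.2 ⟨h3, ?_⟩
      intro J hJ
      exact Finset.subset_empty.1 (h1 J hJ)
    subst h𝒥
    refine ⟨fun _ _ => 0, fun _ _ => le_refl _, ?_, ?_⟩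
    · intro J'
      simp
      exact one_le_pow₀ (by norm_num)
    · simp
  | insert g G' hg ih =>
    intro 𝒥 h1 h2 h3
    set 𝒥0 := 𝒥.filter (fun J => g ∉ J) with h𝒥0
    set 𝒥1 := (𝒥.filter (fun J => g ∈ J)).image (fun J => J.erase g) with h𝒥1
    have hinj : Set.InjOn (fun J : Finset α => J.erase g)
        (↑(𝒥.filter (fun J => g ∈ J)) : Set (Finset α)) := by
      intro A hA B hB hAB
      simp only [coe_filter, Set.mem_ofPred_eq] at hA hB
      have hAB' : A.erase g = B.erase g := hAB
      rw [← Finset.insert_erase hA.2, ← Finset.insert_erase hB.2, hAB']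
    have hcard1 : 𝒥1.card = (𝒥.filter (fun J => g ∈ J)).card := Finset.card_image_of_injOn hinj
    have hcard : 𝒥.card = 𝒥0.card + 𝒥1.card := by
      rw [hcard1, h𝒥0, ← Finset.card_filter_add_card_filter_not (s := 𝒥) (fun J => g ∉ J)]
      simp
    have hsum : ∀ f : Finset α → ℝ, ∑ J ∈ 𝒥, f J =
        ∑ J ∈ 𝒥0, f J + ∑ J ∈ 𝒥1, f (insert g J) := by
      intro f
      rw [← Finset.sum_filter_add_sum_filter_not 𝒥 (fun J => g ∉ J)]
      congr 1
      rw [h𝒥1, Finset.sum_image hinj]
      simp only [not_not]
      apply Finset.sum_congr rfl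
      intro J hJ
      rw [Finset.insert_erase (Finset.mem_filter.1 hJ).2]
    have hsub : 𝒥1 ⊆ 𝒥0 := by
      intro J hJ
      obtain ⟨A, hA, rfl⟩ := Finset.mem_image.1 hJ
      rw [Finset.mem_filter] at hA
      rw [h𝒥0, Finset.mem_filter]
      exact ⟨h2 A hA.1 _ (Finset.erase_subset _ _), Finset.notMem_erase _ _⟩
    have h0sub : ∀ J ∈ 𝒥0, J ⊆ G' := by
      intro J hJ i hi
      rw [h𝒥0, Finset.mem_filter] at hJ
      have := h1 J hJ.1 hi
      rw [Finset.mem_insert] at this
      rcases this with rfl | h
      · exact absurd hi hJ.2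
      · exact h
    have h0down : ∀ J ∈ 𝒥0, ∀ J' ⊆ J, J' ∈ 𝒥0 := by
      intro J hJ J' hJ'
      rw [h𝒥0, Finset.mem_filter] at hJ ⊢
      exact ⟨h2 J hJ.1 J' hJ', fun h => hJ.2 (hJ' h)⟩
    have h1down : ∀ J ∈ 𝒥1, ∀ J' ⊆ J, J' ∈ 𝒥1 := by
      intro J hJ J' hJ'
      obtain ⟨A, hA, rfl⟩ := Finset.mem_image.1 hJ
      rw [Finset.mem_filter] at hA
      have hgJ' : g ∉ J' := fun h => (Finset.notMem_erase g A) (hJ' h)
      refine Finset.mem_image.2 ⟨insert g J', ?_, Finset.erase_insert hgJ'⟩
      rw [Finset.mem_filter]
      refine ⟨h2 A hA.1 _ ?_, Finset.mem_insert_self _ _⟩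
      intro i hi
      rw [Finset.mem_insert] at hi
      rcases hi with rfl | hi
      · exact hA.2
      · exact Finset.mem_of_mem_erase (hJ' hi)
    have h0ne : 𝒥0.Nonempty := by
      obtain ⟨J, hJ⟩ := h3
      refine ⟨∅, ?_⟩
      rw [h𝒥0, Finset.mem_filter]
      exact ⟨h2 J hJ ∅ (Finset.empty_subset _), Finset.notMem_empty _⟩
    obtain ⟨I0, hI0, hF0, hE0⟩ := ih 𝒥0 h0sub h0down h0ne
    by_cases hne : 𝒥1.Nonempty
    · obtain ⟨I1, hI1, hF1, hE1⟩ := ih 𝒥1 (fun J hJ => h0sub J (hsub hJ)) h1down hne
      have hc1 : (0 : ℝ) < 𝒥1.card := by exact_mod_cast hne.card_pos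
      have hc : (0 : ℝ) < 𝒥.card := by exact_mod_cast h3.card_pos
      have hc0 : (0 : ℝ) < 𝒥0.card := by exact_mod_cast h0ne.card_pos
      have hcR : (𝒥.card : ℝ) = 𝒥0.card + 𝒥1.card := by exact_mod_cast hcard
      have hle : (𝒥1.card : ℝ) ≤ 𝒥0.card := by exact_mod_cast Finset.card_le_card hsub
      set w : ℝ := Real.log (𝒥.card / 𝒥1.card) with hw
      have hw0 : 0 ≤ w := by
        apply Real.log_nonneg
        rw [le_div_iff₀ hc1]
        linarith
      have hexpw : Real.exp w = 𝒥.card / 𝒥1.card := Real.exp_log (by positivity)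
      refine ⟨fun J i => if g ∈ J then (if i = g then w else I1 (J.erase g) i) else I0 J i,
        ?_, ?_, ?_⟩
      · intro J i
        dsimp only
        split_ifs
        · exact hw0
        · exact hI1 _ _
        · exact hI0 _ _
      · intro J'
        rw [hsum]
        have hA : ∑ J ∈ 𝒥0, Real.exp (∑ i ∈ J ∩ J',
            (if g ∈ J then (if i = g then w else I1 (J.erase g) i) else I0 J i)) =
            ∑ J ∈ 𝒥0, Real.exp (∑ i ∈ J ∩ J', I0 J i) := by
          apply Finset.sum_congr rfl
          intro J hJ
          rw [h𝒥0, Finset.mem_filter] at hJ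
          simp only [hJ.2, if_false]
        have hB : ∀ J ∈ 𝒥1, (∑ i ∈ insert g J ∩ J',
            (if g ∈ insert g J then (if i = g then w else I1 ((insert g J).erase g) i)
              else I0 (insert g J) i)) =
            (if g ∈ J' then w else 0) + ∑ i ∈ J ∩ J'.erase g, I1 J i := by
          intro J hJ
          have hgJ : g ∉ J := by
            have := hsub hJ
            rw [h𝒥0, Finset.mem_filter] at this
            exact this.2
          simp only [Finset.mem_insert_self, if_true, Finset.erase_insert hgJ]
          by_cases hgJ' : g ∈ J'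
          · have : insert g J ∩ J' = insert g (J ∩ J'.erase g) := by
              ext i
              simp only [Finset.mem_inter, Finset.mem_insert, Finset.mem_erase]
              constructor
              · rintro ⟨rfl | h, h'⟩
                · left; rfl
                · by_cases hi : i = g
                  · left; exact hi
                  · right; exact ⟨h, hi, h'⟩
              · rintro (rfl | ⟨h, h', h''⟩)
                · exact ⟨Or.inl rfl, hgJ'⟩
                · exact ⟨Or.inr h, h''⟩
            rw [this, Finset.sum_insert (by simp)]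
            simp only [hgJ', if_true]
            congr 1
            apply Finset.sum_congr rfl
            intro i hi
            have : i ≠ g := by
              rintro rfl
              simp at hi
            simp [this]
          · have : insert g J ∩ J' = J ∩ J'.erase g := by
              ext i
              simp only [Finset.mem_inter, Finset.mem_insert, Finset.mem_erase]
              constructor
              · rintro ⟨rfl | h, h'⟩
                · exact absurd h' hgJ'
                · exact ⟨h, fun hi => hgJ' (hi ▸ h'), h'⟩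
              · rintro ⟨h, h', h''⟩
                exact ⟨Or.inr h, h''⟩
            rw [this]
            simp only [hgJ', if_false, zero_add]
            apply Finset.sum_congr rfl
            intro i hi
            have : i ≠ g := by
              rintro rfl
              simp at hi
            simp [this]
        rw [hA]
        have hC : ∑ J ∈ 𝒥1, Real.exp (∑ i ∈ insert g J ∩ J',
            (if g ∈ insert g J then (if i = g then w else I1 ((insert g J).erase g) i)
              else I0 (insert g J) i)) =
            Real.exp (if g ∈ J' then w else 0) * ∑ J ∈ 𝒥1, Real.exp (∑ i ∈ J ∩ J'.erase g, I1 J i) := by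
          rw [Finset.mul_sum]
          apply Finset.sum_congr rfl
          intro J hJ
          rw [hB J hJ, Real.exp_add]
        rw [hC]
        have hA0 := hF0 (J'.erase g)
        have hA0' : ∑ J ∈ 𝒥0, Real.exp (∑ i ∈ J ∩ J', I0 J i) =
            ∑ J ∈ 𝒥0, Real.exp (∑ i ∈ J ∩ J'.erase g, I0 J i) := by
          apply Finset.sum_congr rfl
          intro J hJ
          rw [h𝒥0, Finset.mem_filter] at hJ
          congr 2
          ext i
          simp only [Finset.mem_inter, Finset.mem_erase]
          constructor
          · rintro ⟨h, h'⟩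
            exact ⟨h, fun hi => hJ.2 (hi ▸ h), h'⟩
          · rintro ⟨h, h', h''⟩
            exact ⟨h, h''⟩
        rw [hA0']
        have hB0 := hF1 (J'.erase g)
        by_cases hgJ' : g ∈ J'
        · have hcJ : J'.card = (J'.erase g).card + 1 := by
            rw [Finset.card_erase_of_mem hgJ']
            have := Finset.card_pos.2 ⟨g, hgJ'⟩
            omega
          simp only [hgJ', if_true]
          rw [hexpw, hcJ, pow_succ]
          have hpos : (0 : ℝ) < 2 ^ (J'.erase g).card := by positivity
          calc ∑ J ∈ 𝒥0, Real.exp (∑ i ∈ J ∩ J'.erase g, I0 J i) +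
                (𝒥.card : ℝ) / 𝒥1.card * ∑ J ∈ 𝒥1, Real.exp (∑ i ∈ J ∩ J'.erase g, I1 J i)
              ≤ 𝒥0.card * 2 ^ (J'.erase g).card +
                (𝒥.card : ℝ) / 𝒥1.card * (𝒥1.card * 2 ^ (J'.erase g).card) := by
                apply add_le_add hA0
                apply mul_le_mul_of_nonneg_left hB0 (by positivity)
            _ = (𝒥0.card + 𝒥.card) * 2 ^ (J'.erase g).card := by
                field_simp
            _ ≤ (𝒥.card + 𝒥.card) * 2 ^ (J'.erase g).card := by
                apply mul_le_mul_of_nonneg_right _ hpos.le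
                linarith
            _ = 𝒥.card * (2 ^ (J'.erase g).card * 2) := by ring
        · have hcJ : J'.erase g = J' := Finset.erase_eq_of_notMem hgJ'
          simp only [hgJ', if_false, Real.exp_zero, one_mul]
          rw [hcJ] at hA0 hB0 ⊢
          calc _ ≤ 𝒥0.card * 2 ^ J'.card + (𝒥1.card : ℝ) * 2 ^ J'.card := add_le_add hA0 hB0
            _ = 𝒥.card * 2 ^ J'.card := by rw [hcR]; ring
      · rw [hsum]
        have hA : ∑ J ∈ 𝒥0, Real.exp (-(3 / 2) * ∑ i ∈ J,
            (if g ∈ J then (if i = g then w else I1 (J.erase g) i) else I0 J i)) =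
            ∑ J ∈ 𝒥0, Real.exp (-(3 / 2) * ∑ i ∈ J, I0 J i) := by
          apply Finset.sum_congr rfl
          intro J hJ
          rw [h𝒥0, Finset.mem_filter] at hJ
          simp only [hJ.2, if_false]
        have hB : ∀ J ∈ 𝒥1, (∑ i ∈ insert g J,
            (if g ∈ insert g J then (if i = g then w else I1 ((insert g J).erase g) i)
              else I0 (insert g J) i)) = w + ∑ i ∈ J, I1 J i := by
          intro J hJ
          have hgJ : g ∉ J := by
            have := hsub hJ
            rw [h𝒥0, Finset.mem_filter] at this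
            exact this.2
          simp only [Finset.mem_insert_self, if_true, Finset.erase_insert hgJ]
          rw [Finset.sum_insert hgJ]
          simp only [if_true]
          congr 1
          apply Finset.sum_congr rfl
          intro i hi
          have : i ≠ g := by
            rintro rfl
            exact hgJ hi
          simp [this]
        rw [hA]
        have hC : ∑ J ∈ 𝒥1, Real.exp (-(3 / 2) * ∑ i ∈ insert g J,
            (if g ∈ insert g J then (if i = g then w else I1 ((insert g J).erase g) i)
              else I0 (insert g J) i)) =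
            Real.exp (-(3 / 2) * w) * ∑ J ∈ 𝒥1, Real.exp (-(3 / 2) * ∑ i ∈ J, I1 J i) := by
          rw [Finset.mul_sum]
          apply Finset.sum_congr rfl
          intro J hJ
          rw [hB J hJ, mul_add, Real.exp_add]
        rw [hC]
        -- set p
        set p : ℝ := 𝒥1.card / 𝒥.card with hp
        have hp0 : 0 < p := by positivity
        have hp1 : p ≤ 1 / 2 := by
          rw [hp, div_le_div_iff₀ hc (by norm_num)]
          linarith
        have hexp : Real.exp (-(3 / 2) * w) = p * Real.sqrt p := by
          have h1 : w = -Real.log p := by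
            rw [hw, hp, ← Real.log_inv]
            congr 1
            field_simp
          rw [h1, show -(3 / 2) * -Real.log p = Real.log p + Real.log p / 2 by ring, Real.exp_add,
            Real.exp_log hp0, Real.exp_half, Real.exp_log hp0]
        rw [hexp]
        have hs0 : Real.sqrt 𝒥0.card = Real.sqrt (1 - p) * Real.sqrt 𝒥.card := by
          rw [← Real.sqrt_mul (by linarith)]
          congr 1
          rw [hp]
          field_simp
          linarith
        have hs1 : Real.sqrt 𝒥1.card = Real.sqrt p * Real.sqrt 𝒥.card := by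
          rw [← Real.sqrt_mul hp0.le]
          congr 1
          rw [hp]
          field_simp
        calc _ ≤ Real.sqrt 𝒥0.card + p * Real.sqrt p * Real.sqrt 𝒥1.card := by
              apply add_le_add hE0
              apply mul_le_mul_of_nonneg_left hE1 (by positivity)
          _ = (Real.sqrt (1 - p) + p ^ 2) * Real.sqrt 𝒥.card := by
              rw [hs0, hs1]
              have : Real.sqrt p * Real.sqrt p = p := Real.mul_self_sqrt hp0.le
              calc Real.sqrt (1 - p) * Real.sqrt 𝒥.card + p * Real.sqrt p * (Real.sqrt p * Real.sqrt 𝒥.card)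
                  = Real.sqrt (1 - p) * Real.sqrt 𝒥.card + p * (Real.sqrt p * Real.sqrt p) * Real.sqrt 𝒥.card := by ring
                _ = _ := by rw [this]; ring
          _ ≤ 1 * Real.sqrt 𝒥.card := by
              apply mul_le_mul_of_nonneg_right (sqrt_ineq hp0.le hp1) (Real.sqrt_nonneg _)
          _ = _ := one_mul _
    · rw [Finset.not_nonempty_iff_eq_empty] at hne
      have h𝒥 : 𝒥 = 𝒥0 := by
        rw [h𝒥0]
        symm
        apply Finset.filter_true_of_mem
        intro J hJ hgJ
        have : J.erase g ∈ 𝒥1 := Finset.mem_image.2 ⟨J, Finset.mem_filter.2 ⟨hJ, hgJ⟩, rfl⟩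
        rw [hne] at this
        exact absurd this (Finset.notMem_empty _)
      rw [h𝒥]
      exact ⟨I0, hI0, hF0, hE0⟩

end Vale.Agent.H13.ED
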