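import Vale.Agent.H13.ED.Core1
import Vale.Agent.H13.ED.Info

/-! `N(P, 24 B_∞) ≤ N(B_1, P°)^16` for solid bounded `P`. -/

namespace Vale.Agent.H13.ED

open Pointwise Finset Classical

variable {n : ℕ}

theorem two_point {P : Set (Fin n → ℝ)} (hS : Solid P) {y : Fin n → ℝ} (hy : y ∈ P)
    {a b c : Fin n → ℝ} (ha : a - c ∈ polar P) (hb : b - c ∈ polar P) :
    ∑ i, |y i| * |a i - b i| ≤ 2 := by
  have h1 := polar_abs hS ha hy
  have h2 := polar_abs hS hb hy
  calc ∑ i, |y i| * |a i - b i| ≤ ∑ i, (|y i| * |(a - c) i| + |y i| * |(b - c) i|) := by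
        apply Finset.sum_le_sum
        intro i _
        rw [← mul_add]
        apply mul_le_mul_of_nonneg_left _ (abs_nonneg _)
        have : a i - b i = (a - c) i - (b - c) i := by simp
        rw [this]
        exact abs_sub _ _
    _ = ∑ i, |y i| * |(a - c) i| + ∑ i, |y i| * |(b - c) i| := Finset.sum_add_distrib
    _ ≤ 2 := by linarith

theorem grid {P : Set (Fin n → ℝ)} (hS : Solid P) {s : Finset (Fin n → ℝ)}
    (hs : Covers (cross n) (polar P) s) (J : Finset (Fin n)) (hJ : J.Nonempty)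
    (N : Fin n → ℕ) (hN : ∀ i ∈ J, 1 ≤ N i) {y : Fin n → ℝ} (hy : y ∈ P)
    (hyN : ∀ i ∈ J, 2 * (N i : ℝ) ≤ |y i|) :
    ∏ i ∈ J, N i ≤ 6 ^ J.card * s.card := by
  rw [covers_iff] at hs
  set k := J.card with hk
  have hk0 : 0 < k := hJ.card_pos
  have hkR : (0:ℝ) < k := by exact_mod_cast hk0
  let T : Finset (Fin n → ℕ) := Fintype.piFinset
    (fun i => if i ∈ J then Finset.range (N i) else {0})
  have hT : T.card = ∏ i ∈ J, N i := by
    dsimp only [T]
    rw [Fintype.card_piFinset]
    rw [← Finset.prod_subset (Finset.subset_univ J)]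
    · apply Finset.prod_congr rfl
      intro i hi
      simp [hi]
    · intro i _ hi
      simp [hi]
  rw [← hT]
  let f : (Fin n → ℕ) → (Fin n → ℝ) := fun q i => if i ∈ J then (q i : ℝ) / (k * N i) else 0
  have hf : ∀ q ∈ T, f q ∈ cross n := by
    intro q hq
    rw [Fintype.mem_piFinset] at hq
    show ∑ i, |f q i| ≤ 1
    calc ∑ i, |f q i| ≤ ∑ i, (if i ∈ J then 1 / (k:ℝ) else 0) := by
          apply Finset.sum_le_sum
          intro i _
          dsimp only [f]
          split_ifs with hi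
          · have h1 := hq i
            simp only [hi, if_true, Finset.mem_range] at h1
            have h2 : (q i : ℝ) ≤ N i := by exact_mod_cast h1.le
            have h3 : (0:ℝ) < N i := by exact_mod_cast hN i hi
            rw [abs_of_nonneg (by positivity), div_le_div_iff₀ (by positivity) hkR]
            nlinarith
          · simp
      _ = 1 := by
          simp only [Finset.sum_ite_mem, Finset.univ_inter, Finset.sum_const, nsmul_eq_mul]
          rw [← hk]
          field_simp
  have hex : ∀ q : Fin n → ℕ, ∃ c : Fin n → ℝ, q ∈ T → (c ∈ s ∧ f q - c ∈ polar P) := by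
    intro q
    by_cases hq : q ∈ T
    · obtain ⟨c, hc1, hc2⟩ := hs (f q) (hf q hq)
      exact ⟨c, fun _ => ⟨hc1, hc2⟩⟩
    · exact ⟨0, fun h => absurd h hq⟩
  choose g hg using hex
  apply Finset.card_le_mul_card_image_of_maps_to (f := g) (fun q hq => (hg q hq).1)
  intro c _
  rcases (T.filter (fun q => g q = c)).eq_empty_or_nonempty with h | ⟨q0, hq0⟩
  · rw [h]
    simp
  · rw [Finset.mem_filter] at hq0
    let h : (Fin n → ℕ) → (Fin n → ℤ) := fun q i => (q i : ℤ) - q0 i
    have hinj : Function.Injective h := by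
      intro q q' hqq
      funext i
      have := congrFun hqq i
      dsimp only [h] at this
      omega
    rw [← Finset.card_image_of_injective _ hinj]
    have : (6:ℕ) ^ k = 2 ^ k * 3 ^ J.card := by rw [← hk, ← mul_pow]; norm_num
    rw [this]
    apply count_l1
    · intro a ha i hi
      obtain ⟨q, hq, rfl⟩ := Finset.mem_image.1 ha
      rw [Finset.mem_filter] at hq
      have h3 := (Fintype.mem_piFinset.1 hq.1) i
      have h4 := (Fintype.mem_piFinset.1 hq0.1) i
      simp only [hi, if_false, Finset.mem_singleton] at h3 h4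
      dsimp only [h]
      rw [h3, h4]
      simp
    · intro a ha
      obtain ⟨q, hq, rfl⟩ := Finset.mem_image.1 ha
      rw [Finset.mem_filter] at hq
      have h1 := (hg q hq.1).2
      have h2 := (hg q0 hq0.1).2
      rw [hq.2] at h1
      rw [hq0.2] at h2
      have h3 := two_point hS hy h1 h2
      have h4 : ∑ i, (((h q i).natAbs : ℕ) : ℝ) ≤ k := by
        have h5 : ∀ i, 2 / (k:ℝ) * (((h q i).natAbs : ℕ) : ℝ) ≤ |y i| * |f q i - f q0 i| := by
          intro i
          by_cases hi : i ∈ J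
          · have hNi : (0:ℝ) < N i := by exact_mod_cast hN i hi
            have h6 : |f q i - f q0 i| = (((h q i).natAbs : ℕ) : ℝ) / (k * N i) := by
              dsimp only [f, h]
              rw [if_pos hi, if_pos hi, ← sub_div, abs_div, abs_of_pos (by positivity : (0:ℝ) < k * N i),
                Nat.cast_natAbs]
              push_cast
              rfl
            rw [h6]
            have h7 := hyN i hi
            have h8 : (0:ℝ) ≤ (((h q i).natAbs : ℕ) : ℝ) := by positivity
            calc 2 / (k:ℝ) * (((h q i).natAbs : ℕ) : ℝ)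
                = 2 * (N i : ℝ) * ((((h q i).natAbs : ℕ) : ℝ) / (k * N i)) := by
                  field_simp
              _ ≤ |y i| * ((((h q i).natAbs : ℕ) : ℝ) / (k * N i)) := by
                  apply mul_le_mul_of_nonneg_right h7 (by positivity)
          · have h3 := (Fintype.mem_piFinset.1 hq.1) i
            have h4 := (Fintype.mem_piFinset.1 hq0.1) i
            simp only [hi, if_false, Finset.mem_singleton] at h3 h4
            have h5 : h q i = 0 := by
              dsimp only [h]
              rw [h3, h4]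
              simp
            rw [h5]
            simp
            positivity
        have h6 : 2 / (k:ℝ) * ∑ i, (((h q i).natAbs : ℕ) : ℝ) ≤ 2 := by
          rw [Finset.mul_sum]
          exact le_trans (Finset.sum_le_sum (fun i _ => h5 i)) h3
        rw [div_mul_eq_mul_div, div_le_iff₀ hkR] at h6
        linarith
      exact_mod_cast h4

theorem zero_mem_of_solid {P : Set (Fin n → ℝ)} (hS : Solid P) (hne : P.Nonempty) :
    (0 : Fin n → ℝ) ∈ P := by
  obtain ⟨y, hy⟩ := hne
  exact hS y hy 0 (fun i => by simp)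

/-- the complex of sets `J` with `24 · 1_J ∈ P` -/
noncomputable def cpx (P : Set (Fin n → ℝ)) : Finset (Finset (Fin n)) :=
  Finset.univ.filter (fun J => (fun i => if i ∈ J then (24:ℝ) else 0) ∈ P)

theorem mem_cpx {P : Set (Fin n → ℝ)} {J : Finset (Fin n)} :
    J ∈ cpx P ↔ (fun i => if i ∈ J then (24:ℝ) else 0) ∈ P := by
  simp [cpx]

theorem cpx_pow_le {P : Set (Fin n → ℝ)} (hS : Solid P) {s : Finset (Fin n → ℝ)}
    (hs : Covers (cross n) (polar P) s) (hM : 1 ≤ s.card) {J : Finset (Fin n)}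
    (hJ : J ∈ cpx P) : 2 ^ J.card ≤ s.card := by
  rcases J.eq_empty_or_nonempty with h | h
  · rw [h]
    simpa using hM
  · have h1 := grid hS hs J h (fun _ => 12) (fun _ _ => by norm_num) (mem_cpx.1 hJ) (by
      intro i hi
      simp only [hi, if_true]
      norm_num)
    rw [Finset.prod_const] at h1
    have h2 : (12:ℕ) ^ J.card = 6 ^ J.card * 2 ^ J.card := by rw [← mul_pow]; norm_num
    rw [h2] at h1
    exact Nat.le_of_mul_le_mul_left h1 (by positivity)

theorem cpx_down {P : Set (Fin n → ℝ)} (hS : Solid P) : ∀ J ∈ cpx P, ∀ J' ⊆ J, J' ∈ cpx P := by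
  intro J hJ J' hJ'
  rw [mem_cpx] at hJ ⊢
  apply hS _ hJ
  intro i
  by_cases h : i ∈ J'
  · simp [h, hJ' h]
  · simp [h]

theorem cpx_card_le {P : Set (Fin n → ℝ)} (hS : Solid P) (hne : P.Nonempty)
    {s : Finset (Fin n → ℝ)}
    (hs : Covers (cross n) (polar P) s) (hM : 1 ≤ s.card) :
    ((cpx P).card : ℝ) ≤ 64 * (s.card : ℝ) ^ 8 := by
  have hMR : (1:ℝ) ≤ s.card := by exact_mod_cast hM
  have hM8 : (1:ℝ) ≤ (s.card : ℝ) ^ 8 := one_le_pow₀ hMR
  have hempty : ∅ ∈ cpx P := by
    rw [mem_cpx]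
    have := zero_mem_of_solid hS hne
    convert this using 1
    ext i
    simp
  have hne𝒥 : (cpx P).Nonempty := ⟨∅, hempty⟩
  by_cases h4 : ((cpx P).card : ℝ) ≤ 4
  · nlinarith
  push Not at h4
  obtain ⟨I, hI, hF1, hF2⟩ := info (Finset.univ : Finset (Fin n)) (cpx P)
    (fun J _ => Finset.subset_univ J) (cpx_down hS) hne𝒥
  set 𝒥 := cpx P with h𝒥
  set Z : ℝ := (𝒥.card : ℝ) with hZ
  have hZ0 : 0 < Z := by linarith
  have hsq : 0 < Real.sqrt Z := Real.sqrt_pos.2 hZ0
  have hsqsq : Real.sqrt Z * Real.sqrt Z = Z := Real.mul_self_sqrt hZ0.le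
  let W : Finset (Fin n) → ℝ := fun J => ∑ i ∈ J, I J i
  set good := 𝒥.filter (fun J => Real.exp (-(3 / 2) * W J) ≤ 2 / Real.sqrt Z) with hgood
  have hbad : ((𝒥.filter (fun J => ¬ Real.exp (-(3 / 2) * W J) ≤ 2 / Real.sqrt Z)).card : ℝ)
      ≤ Z / 2 := by
    set bad := 𝒥.filter (fun J => ¬ Real.exp (-(3 / 2) * W J) ≤ 2 / Real.sqrt Z) with hbad
    have h1 : (bad.card : ℝ) * (2 / Real.sqrt Z) ≤ Real.sqrt Z := by
      calc (bad.card : ℝ) * (2 / Real.sqrt Z) = ∑ J ∈ bad, (2 / Real.sqrt Z) := by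
            rw [Finset.sum_const, nsmul_eq_mul]
        _ ≤ ∑ J ∈ bad, Real.exp (-(3 / 2) * W J) := by
            apply Finset.sum_le_sum
            intro J hJ
            rw [hbad, Finset.mem_filter] at hJ
            exact (not_le.1 hJ.2).le
        _ ≤ ∑ J ∈ 𝒥, Real.exp (-(3 / 2) * W J) := by
            apply Finset.sum_le_sum_of_subset_of_nonneg (Finset.filter_subset _ _)
            intro J _ _
            exact (Real.exp_pos _).le
        _ ≤ Real.sqrt Z := hF2
    rw [mul_div_assoc', div_le_iff₀ hsq, hsqsq] at h1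
    linarith
  have hgoodcard : Z / 2 ≤ (good.card : ℝ) := by
    have h1 : (good.card : ℝ) +
        ((𝒥.filter (fun J => ¬ Real.exp (-(3 / 2) * W J) ≤ 2 / Real.sqrt Z)).card : ℝ) = Z := by
      rw [hgood, hZ]
      exact_mod_cast Finset.card_filter_add_card_filter_not (s := 𝒥)
        (fun J => Real.exp (-(3 / 2) * W J) ≤ 2 / Real.sqrt Z)
    linarith
  set Lg : ℝ := Real.log (Z / 4) with hLg
  have hLg0 : 0 < Lg := Real.log_pos (by linarith)
  have hW : ∀ J ∈ good, Lg ≤ 3 * W J := by
    intro J hJ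
    rw [hgood, Finset.mem_filter] at hJ
    have h1 := hJ.2
    have h2 := Real.log_le_log (Real.exp_pos _) h1
    rw [Real.log_exp, Real.log_div (by norm_num) hsq.ne', Real.log_sqrt hZ0.le] at h2
    have h3 : Lg = Real.log Z - 2 * Real.log 2 := by
      rw [hLg, Real.log_div hZ0.ne' (by norm_num), show (4:ℝ) = 2 ^ 2 by norm_num, Real.log_pow]
      norm_num
    linarith
  have hW0 : ∀ J ∈ good, 0 < W J := fun J hJ => by
    have := hW J hJ
    linarith
  let X : Finset (Fin n) → (Fin n → ℝ) := fun J i => if i ∈ J then I J i / W J else 0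
  have hX : ∀ J ∈ good, X J ∈ cross n := by
    intro J hJ
    show ∑ i, |X J i| ≤ 1
    have h1 := hW0 J hJ
    have h2 : ∑ i, |X J i| = ∑ i ∈ J, I J i / W J := by
      rw [← Finset.sum_subset (Finset.subset_univ J)]
      · apply Finset.sum_congr rfl
        intro i hi
        dsimp only [X]
        rw [if_pos hi, abs_of_nonneg (div_nonneg (hI _ _) h1.le)]
      · intro i _ hi
        dsimp only [X]
        rw [if_neg hi, abs_zero]
    rw [h2, ← Finset.sum_div]
    exact le_of_eq (div_self h1.ne')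
  rw [covers_iff] at hs
  have hex : ∀ J : Finset (Fin n), ∃ c : Fin n → ℝ, J ∈ good → (c ∈ s ∧ X J - c ∈ polar P) := by
    intro J
    by_cases hJ : J ∈ good
    · obtain ⟨c, hc1, hc2⟩ := hs (X J) (hX J hJ)
      exact ⟨c, fun _ => ⟨hc1, hc2⟩⟩
    · exact ⟨0, fun h => absurd h hJ⟩
  choose g hg using hex
  set θ : ℝ := Real.exp (Lg / 4) with hθ
  have hθ4 : θ ^ 4 = Z / 4 := by
    rw [hθ, ← Real.exp_nat_mul]
    rw [show ((4:ℕ):ℝ) * (Lg / 4) = Lg by push_cast; ring, hLg, Real.exp_log (by positivity)]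
  have hθ0 : 0 < θ := Real.exp_pos _
  have hgsub : ∀ J ∈ good, J ∈ 𝒥 := fun J hJ => (Finset.mem_filter.1 hJ).1
  have hfib : ∀ c ∈ s, ((good.filter (fun J => g J = c)).card : ℝ) * θ ≤ Z * s.card := by
    intro c _
    rcases (good.filter (fun J => g J = c)).eq_empty_or_nonempty with h | ⟨J', hJ'⟩
    · rw [h]
      simp
      positivity
    · rw [Finset.mem_filter] at hJ'
      have h1 : ∀ J ∈ good.filter (fun J => g J = c), θ ≤ Real.exp (∑ i ∈ J ∩ J', I J i) := by
        intro J hJ
        rw [Finset.mem_filter] at hJ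
        have h2 := (hg J hJ.1).2
        have h3 := (hg J' hJ'.1).2
        rw [hJ.2] at h2
        rw [hJ'.2] at h3
        have hmem : (fun i => if i ∈ J \ J' then (24:ℝ) else 0) ∈ P :=
          mem_cpx.1 (cpx_down hS J (hgsub J hJ.1) (J \ J') Finset.sdiff_subset)
        have h4 := two_point hS hmem h2 h3
        have hWJ := hW0 J hJ.1
        have h5 : ∑ i ∈ J \ J', 24 * (I J i / W J) ≤ 2 := by
          refine le_trans (le_of_eq ?_) h4
          rw [← Finset.sum_subset (Finset.subset_univ (J \ J'))]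
          · apply Finset.sum_congr rfl
            intro i hi
            have hi' := Finset.mem_sdiff.1 hi
            dsimp only [X]
            rw [if_pos hi, if_pos hi'.1, if_neg hi'.2, sub_zero,
              abs_of_nonneg (div_nonneg (hI _ _) hWJ.le), abs_of_pos (by norm_num : (0:ℝ) < 24)]
          · intro i _ hi
            simp only [if_neg hi]
            simp
        have h6 : ∑ i ∈ J \ J', I J i ≤ W J / 12 := by
          rw [← Finset.mul_sum, ← Finset.sum_div, mul_div_assoc', div_le_iff₀ hWJ] at h5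
          linarith
        have h7 : ∑ i ∈ J ∩ J', I J i + ∑ i ∈ J \ J', I J i = W J :=
          Finset.sum_inter_add_sum_sdiff J J' _
        rw [hθ]
        apply Real.exp_le_exp.2
        have h8 := hW J hJ.1
        linarith
      calc ((good.filter (fun J => g J = c)).card : ℝ) * θ
          = ∑ J ∈ good.filter (fun J => g J = c), θ := by
            rw [Finset.sum_const, nsmul_eq_mul]
        _ ≤ ∑ J ∈ good.filter (fun J => g J = c), Real.exp (∑ i ∈ J ∩ J', I J i) :=
            Finset.sum_le_sum h1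
        _ ≤ ∑ J ∈ 𝒥, Real.exp (∑ i ∈ J ∩ J', I J i) := by
            apply Finset.sum_le_sum_of_subset_of_nonneg
            · intro J hJ
              exact hgsub J (Finset.mem_filter.1 hJ).1
            · intro J _ _
              exact (Real.exp_pos _).le
        _ ≤ Z * 2 ^ J'.card := hF1 J'
        _ ≤ Z * s.card := by
            apply mul_le_mul_of_nonneg_left _ hZ0.le
            exact_mod_cast cpx_pow_le hS ((covers_iff).2 hs) hM (hgsub J' hJ'.1)
  have hsum : (good.card : ℝ) * θ ≤ s.card * (Z * s.card) := by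
    have h1 : good.card = ∑ c ∈ s, (good.filter (fun J => g J = c)).card :=
      Finset.card_eq_sum_card_fiberwise (fun J hJ => (hg J hJ).1)
    rw [h1]
    push_cast
    rw [Finset.sum_mul]
    calc _ ≤ ∑ c ∈ s, Z * s.card := Finset.sum_le_sum hfib
      _ = _ := by rw [Finset.sum_const, nsmul_eq_mul]
  have h5 : θ ≤ 2 * (s.card : ℝ) ^ 2 := by
    have h6 : Z / 2 * θ ≤ s.card * (Z * s.card) :=
      le_trans (mul_le_mul_of_nonneg_right hgoodcard hθ0.le) hsum
    have h7 : Z * θ ≤ Z * (2 * (s.card : ℝ) ^ 2) := by nlinarith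
    exact le_of_mul_le_mul_left h7 hZ0
  have h6 : Z / 4 ≤ (2 * (s.card : ℝ) ^ 2) ^ 4 := by
    rw [← hθ4]
    exact pow_le_pow_left₀ hθ0.le h5 4
  have h7 : (2 * (s.card : ℝ) ^ 2) ^ 4 = 16 * (s.card : ℝ) ^ 8 := by ring
  rw [h7] at h6
  linarith

theorem icc_succ (m : ℕ) : (Finset.Icc (-((m + 1 : ℕ) : ℤ)) ((m + 1 : ℕ) : ℤ)).erase 0 =
        insert ((m + 1 : ℕ) : ℤ) (insert (-((m + 1 : ℕ) : ℤ))
          ((Finset.Icc (-(m : ℤ)) m).erase 0)) := by
  ext j
  simp only [Finset.mem_Icc, Finset.mem_insert, Finset.mem_erase]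
  push_cast
  omega

theorem sum_succ (m : ℕ) :
    ∑ j ∈ (Finset.Icc (-((m + 1 : ℕ) : ℤ)) ((m + 1 : ℕ) : ℤ)).erase 0,
      1 / ((j.natAbs : ℕ) : ℝ) ^ 2 =
    2 / ((m : ℝ) + 1) ^ 2 + ∑ j ∈ (Finset.Icc (-(m : ℤ)) m).erase 0,
      1 / ((j.natAbs : ℕ) : ℝ) ^ 2 := by
  rw [icc_succ, Finset.sum_insert, Finset.sum_insert]
  · have h1 : ((m + 1 : ℕ) : ℤ).natAbs = m + 1 := Int.natAbs_natCast _
    have h2 : (-((m + 1 : ℕ) : ℤ)).natAbs = m + 1 := by rw [Int.natAbs_neg, Int.natAbs_natCast]
    rw [h1, h2]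
    push_cast
    ring
  · simp only [Finset.mem_Icc, Finset.mem_erase]
    push_cast
    omega
  · simp only [Finset.mem_insert, Finset.mem_Icc, Finset.mem_erase]
    push_cast
    omega

theorem inv_sq_sum' (m : ℕ) :
    ∑ j ∈ (Finset.Icc (-((m + 1 : ℕ) : ℤ)) ((m + 1 : ℕ) : ℤ)).erase 0,
      1 / ((j.natAbs : ℕ) : ℝ) ^ 2 ≤ 4 - 2 / ((m : ℝ) + 1) := by
  induction m with
  | zero =>
    rw [sum_succ]
    norm_num
  | succ m ih =>
    rw [sum_succ]
    have hm : (0:ℝ) ≤ m := by positivity
    have h1 : 2 / (((m + 1 : ℕ) : ℝ) + 1) ^ 2 ≤ 2 / ((m : ℝ) + 1) - 2 / (((m + 1 : ℕ) : ℝ) + 1) := by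
      push_cast
      rw [div_sub_div _ _ (by positivity) (by positivity), div_le_div_iff₀ (by positivity)
        (by positivity)]
      nlinarith
    linarith

theorem inv_sq_sum (R : ℕ) :
    ∑ j ∈ (Finset.Icc (-(R : ℤ)) R).erase 0, 1 / ((j.natAbs : ℕ) : ℝ) ^ 2 ≤ 4 := by
  rcases R with _ | m
  · norm_num
  · refine le_trans (inv_sq_sum' m) ?_
    have : (0:ℝ) ≤ 2 / ((m : ℝ) + 1) := by positivity
    linarith

/-- number of integer points with given support -/
theorem supp_count {P : Set (Fin n → ℝ)} (hS : Solid P) {s : Finset (Fin n → ℝ)}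
    (hs : Covers (cross n) (polar P) s) (hM : 1 ≤ s.card) (R : ℕ) (J : Finset (Fin n))
    (S : Finset (Fin n → ℤ))
    (h0 : ∀ a ∈ S, ∀ i, a i ≠ 0 ↔ i ∈ J) (hR : ∀ a ∈ S, ∀ i, a i ∈ Finset.Icc (-(R : ℤ)) R)
    (hP : ∀ a ∈ S, (fun i => 24 * (a i : ℝ)) ∈ P) :
    (S.card : ℝ) ≤ (s.card : ℝ) ^ 2 := by
  have hMR : (1:ℝ) ≤ s.card := by exact_mod_cast hM
  rcases J.eq_empty_or_nonempty with hJ | hJ
  · have h1 : S ⊆ {0} := by
      intro a ha
      rw [Finset.mem_singleton]
      funext i
      by_contra h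
      have := (h0 a ha i).1 h
      rw [hJ] at this
      exact absurd this (Finset.notMem_empty _)
    have h2 : (S.card : ℝ) ≤ 1 := by exact_mod_cast Finset.card_le_card h1
    nlinarith
  · have h1 : ∀ a ∈ S, (2:ℝ) ^ J.card * ∏ i ∈ J, (((a i).natAbs : ℕ) : ℝ) ≤ s.card := by
      intro a ha
      have h2 := grid hS hs J hJ (fun i => 12 * (a i).natAbs) (by
        intro i hi
        have := (h0 a ha i).2 hi
        have : 0 < (a i).natAbs := Int.natAbs_pos.2 this
        omega) (hP a ha) (by
        intro i _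
        push_cast
        rw [abs_mul, abs_of_pos (by norm_num : (0:ℝ) < 24), Nat.cast_natAbs]
        push_cast
        linarith)
      rw [Finset.prod_mul_distrib, Finset.prod_const] at h2
      have h3 : (12:ℕ) ^ J.card = 6 ^ J.card * 2 ^ J.card := by rw [← mul_pow]; norm_num
      rw [h3, mul_assoc] at h2
      have h4 := Nat.le_of_mul_le_mul_left h2 (by positivity)
      have h5 : ((2 ^ J.card * ∏ i ∈ J, (a i).natAbs : ℕ) : ℝ) ≤ (s.card : ℝ) := by
        exact_mod_cast h4
      push_cast at h5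
      exact h5
    have h2 : ∀ a ∈ S, (1:ℝ) ≤ (s.card : ℝ) ^ 2 / 4 ^ J.card *
        ∏ i ∈ J, (1 / (((a i).natAbs : ℕ) : ℝ) ^ 2) := by
      intro a ha
      have hpos : 0 < ∏ i ∈ J, (((a i).natAbs : ℕ) : ℝ) := by
        apply Finset.prod_pos
        intro i hi
        have := (h0 a ha i).2 hi
        have : 0 < (a i).natAbs := Int.natAbs_pos.2 this
        exact_mod_cast this
      have h3 := h1 a ha
      have h4 : ∏ i ∈ J, (1 / (((a i).natAbs : ℕ) : ℝ) ^ 2) =
          1 / (∏ i ∈ J, (((a i).natAbs : ℕ) : ℝ)) ^ 2 := by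
        rw [Finset.prod_div_distrib, Finset.prod_pow]
        simp
      rw [h4, div_mul_div_comm, mul_one, le_div_iff₀ (by positivity), one_mul]
      have h5 : (4:ℝ) ^ J.card * (∏ i ∈ J, (((a i).natAbs : ℕ) : ℝ)) ^ 2 =
          (2 ^ J.card * ∏ i ∈ J, (((a i).natAbs : ℕ) : ℝ)) ^ 2 := by
        rw [mul_pow, ← pow_mul, mul_comm J.card 2, pow_mul]
        norm_num
      rw [h5]
      exact pow_le_pow_left₀ (by positivity) h3 2
    have hsub : S ⊆ Fintype.piFinset
        (fun i => if i ∈ J then (Finset.Icc (-(R : ℤ)) R).erase 0 else {0}) := by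
      intro a ha
      rw [Fintype.mem_piFinset]
      intro i
      split_ifs with hi
      · rw [Finset.mem_erase]
        exact ⟨(h0 a ha i).2 hi, hR a ha i⟩
      · rw [Finset.mem_singleton]
        by_contra h
        exact hi ((h0 a ha i).1 h)
    calc (S.card : ℝ) = ∑ a ∈ S, (1:ℝ) := by simp
      _ ≤ ∑ a ∈ S, (s.card : ℝ) ^ 2 / 4 ^ J.card *
            ∏ i ∈ J, (1 / (((a i).natAbs : ℕ) : ℝ) ^ 2) := Finset.sum_le_sum h2
      _ = (s.card : ℝ) ^ 2 / 4 ^ J.card * ∑ a ∈ S,
            ∏ i ∈ J, (1 / (((a i).natAbs : ℕ) : ℝ) ^ 2) := by rw [Finset.mul_sum]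
      _ ≤ (s.card : ℝ) ^ 2 / 4 ^ J.card * 4 ^ J.card := by
          apply mul_le_mul_of_nonneg_left _ (by positivity)
          calc ∑ a ∈ S, ∏ i ∈ J, (1 / (((a i).natAbs : ℕ) : ℝ) ^ 2)
              ≤ ∑ a ∈ Fintype.piFinset
                  (fun i => if i ∈ J then (Finset.Icc (-(R : ℤ)) R).erase 0 else {0}),
                  ∏ i ∈ J, (1 / (((a i).natAbs : ℕ) : ℝ) ^ 2) := by
                apply Finset.sum_le_sum_of_subset_of_nonneg hsub
                intro a _ _
                positivity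
            _ = ∑ a ∈ Fintype.piFinset
                  (fun i => if i ∈ J then (Finset.Icc (-(R : ℤ)) R).erase 0 else {0}),
                  ∏ i, (if i ∈ J then (1 / (((a i).natAbs : ℕ) : ℝ) ^ 2) else 1) := by
                apply Finset.sum_congr rfl
                intro a _
                rw [Finset.prod_ite_mem, Finset.univ_inter]
            _ = ∏ i, ∑ j ∈ (if i ∈ J then (Finset.Icc (-(R : ℤ)) R).erase 0 else {0}),
                  (if i ∈ J then (1 / ((j.natAbs : ℕ) : ℝ) ^ 2) else 1) := by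
                rw [Finset.prod_univ_sum]
            _ ≤ ∏ i, (if i ∈ J then (4:ℝ) else 1) := by
                apply Finset.prod_le_prod
                · intro i _
                  apply Finset.sum_nonneg
                  intro j _
                  split_ifs
                  · positivity
                  · norm_num
                · intro i _
                  by_cases hi : i ∈ J
                  · simp only [hi, if_true]
                    exact inv_sq_sum R
                  · simp only [hi, if_false]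
                    simp
            _ = 4 ^ J.card := by
                rw [Finset.prod_ite]
                simp
      _ = (s.card : ℝ) ^ 2 := by
          field_simp

theorem core2 {P : Set (Fin n → ℝ)} (hS : Solid P) (hb : Bornology.IsBounded P)
    (hne : P.Nonempty) {s : Finset (Fin n → ℝ)} (hs : Covers (cross n) (polar P) s) :
    ∃ s' : Finset (Fin n → ℝ), s'.card ≤ s.card ^ 16 ∧ Covers P ((24:ℝ) • cube n) s' := by
  have hM : 1 ≤ s.card := by
    have h := (covers_iff).1 hs 0 (by show ∑ i, |(0 : Fin n → ℝ) i| ≤ 1; simp)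
    obtain ⟨c, hc, -⟩ := h
    exact Finset.card_pos.2 ⟨c, hc⟩
  obtain ⟨R0, hR0⟩ := hb.exists_norm_le
  obtain ⟨R, hR⟩ := exists_nat_ge R0
  let Q : Finset (Fin n → ℤ) := (Fintype.piFinset (fun _ => Finset.Icc (-(R : ℤ)) R)).filter
    (fun k => (fun i => 24 * (k i : ℝ)) ∈ P)
  let su : (Fin n → ℤ) → Finset (Fin n) := fun k => Finset.univ.filter (fun i => k i ≠ 0)
  have hsu : ∀ k ∈ Q, su k ∈ cpx P := by
    intro k hk
    rw [mem_cpx]
    apply hS _ (Finset.mem_filter.1 hk).2
    intro i
    dsimp only [su]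
    by_cases hi : k i = 0
    · simp [hi]
    · have h1 : (1:ℝ) ≤ |(k i : ℝ)| := by
        have : 1 ≤ |k i| := Int.one_le_abs hi
        exact_mod_cast this
      simp only [Finset.mem_filter, Finset.mem_univ, true_and, ne_eq, hi, not_false_eq_true,
        if_true]
      rw [abs_mul, abs_of_pos (by norm_num : (0:ℝ) < 24)]
      linarith
  have hQ1 : (Q.card : ℝ) ≤ (cpx P).card * (s.card : ℝ) ^ 2 := by
    have h1 : Q.card = ∑ J ∈ cpx P, (Q.filter (fun k => su k = J)).card :=
      Finset.card_eq_sum_card_fiberwise (fun k hk => hsu k hk)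
    rw [h1]
    push_cast
    calc _ ≤ ∑ J ∈ cpx P, (s.card : ℝ) ^ 2 := by
          apply Finset.sum_le_sum
          intro J _
          apply supp_count hS hs hM R J
          · intro a ha i
            have := (Finset.mem_filter.1 ha).2
            rw [← this]
            simp [su]
          · intro a ha i
            have := (Finset.mem_filter.1 (Finset.mem_filter.1 ha).1).1
            exact (Fintype.mem_piFinset.1 this) i
          · intro a ha
            exact (Finset.mem_filter.1 (Finset.mem_filter.1 ha).1).2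
      _ = _ := by rw [Finset.sum_const, nsmul_eq_mul]
  have hQ2 : Q.card ≤ s.card ^ 16 := by
    rcases Nat.lt_or_ge 1 s.card with h | h
    · have h1 := cpx_card_le hS hne hs hM
      have hMR : (2:ℝ) ≤ s.card := by exact_mod_cast h
      have h2 : (Q.card : ℝ) ≤ (s.card : ℝ) ^ 16 := by
        calc (Q.card : ℝ) ≤ (cpx P).card * (s.card : ℝ) ^ 2 := hQ1
          _ ≤ (64 * (s.card : ℝ) ^ 8) * (s.card : ℝ) ^ 2 :=
              mul_le_mul_of_nonneg_right h1 (by positivity)
          _ = 2 ^ 6 * (s.card : ℝ) ^ 10 := by ring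
          _ ≤ (s.card : ℝ) ^ 6 * (s.card : ℝ) ^ 10 :=
              mul_le_mul_of_nonneg_right (pow_le_pow_left₀ (by norm_num) hMR 6) (by positivity)
          _ = _ := by ring
      exact_mod_cast h2
    · have h1 : s.card = 1 := by omega
      have h2 : (cpx P).card ≤ 1 := by
        rw [Finset.card_le_one]
        have h3 : ∀ J ∈ cpx P, J = ∅ := by
          intro J hJ
          have := cpx_pow_le hS hs hM hJ
          rw [h1] at this
          by_contra hne
          have h4 : 0 < J.card := Finset.card_pos.2 (Finset.nonempty_iff_ne_empty.2 hne)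
          have h5 : 2 ^ 1 ≤ 2 ^ J.card := Nat.pow_le_pow_right (by norm_num) h4
          omega
        intro a ha b hb
        rw [h3 a ha, h3 b hb]
      have h3 : (Q.card : ℝ) ≤ 1 := by
        rw [h1] at hQ1
        have h6 : ((cpx P).card : ℝ) ≤ 1 := by exact_mod_cast h2
        norm_num at hQ1
        exact le_trans (by exact_mod_cast hQ1) h6
      have h4 : Q.card ≤ 1 := by exact_mod_cast h3
      rw [h1]
      simpa using h4
  refine ⟨Q.image (fun k i => 24 * (k i : ℝ)), le_trans Finset.card_image_le hQ2, ?_⟩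
  rw [covers_iff]
  intro y hy
  let k : Fin n → ℤ := fun i => tr (y i / 24)
  have hk1 : ∀ i, |24 * (k i : ℝ)| ≤ |y i| := by
    intro i
    have := tr_abs_le (y i / 24)
    rw [abs_div, abs_of_pos (by norm_num : (0:ℝ) < 24), le_div_iff₀ (by norm_num)] at this
    rw [abs_mul, abs_of_pos (by norm_num : (0:ℝ) < 24)]
    linarith
  have hk2 : (fun i => 24 * (k i : ℝ)) ∈ P := hS y hy _ hk1
  have hkQ : k ∈ Q := by
    rw [Finset.mem_filter]
    refine ⟨?_, hk2⟩
    rw [Fintype.mem_piFinset]
    intro i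
    have h1 : |y i| ≤ R := by
      have h2 := norm_le_pi_norm y i
      rw [Real.norm_eq_abs] at h2
      linarith [hR0 y hy]
    have h2 := hk1 i
    rw [abs_mul, abs_of_pos (by norm_num : (0:ℝ) < 24)] at h2
    have h3 : |(k i : ℝ)| ≤ R := by
      have := abs_nonneg (k i : ℝ)
      linarith
    rw [abs_le] at h3
    rw [Finset.mem_Icc]
    constructor
    · exact_mod_cast h3.1
    · exact_mod_cast h3.2
  refine ⟨fun i => 24 * (k i : ℝ), Finset.mem_image_of_mem _ hkQ, ?_⟩
  rw [Set.mem_smul_set_iff_inv_smul_mem₀ (by norm_num)]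
  intro i
  have h1 := tr_sub_abs_le (y i / 24)
  simp only [Pi.smul_apply, Pi.sub_apply, smul_eq_mul]
  have h2 : (24:ℝ)⁻¹ * (y i - 24 * (k i : ℝ)) = y i / 24 - (k i : ℝ) := by ring
  rw [h2]
  exact h1

end Vale.Agent.H13.ED
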