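import Vale.Agent.H13.ED.Var

/-! Elementary counting of integer vectors and basic facts on solid sets and polars. -/

namespace Vale.Agent.H13.ED

open Pointwise Finset

/-- the cube `[-1,1]^n` -/
def cube (n : ℕ) : Set (Fin n → ℝ) := {x | ∀ i, |x i| ≤ 1}

/-- the standard cross-polytope -/
def cross (n : ℕ) : Set (Fin n → ℝ) := {x | ∑ i, |x i| ≤ 1}

theorem mem_smul_polar {n : ℕ} {P : Set (Fin n → ℝ)} {c : ℝ} (hc : 0 < c) {z : Fin n → ℝ} :
    z ∈ c • polar P ↔ ∀ y ∈ P, ∑ i, y i * z i ≤ c := by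
  rw [Set.mem_smul_set_iff_inv_smul_mem₀ hc.ne']
  unfold polar
  simp only [Set.mem_ofPred_eq, Pi.smul_apply, smul_eq_mul]
  constructor
  · intro h y hy
    have := h y hy
    have e : ∑ i, y i * (c⁻¹ * z i) = c⁻¹ * ∑ i, y i * z i := by
      rw [Finset.mul_sum]
      apply Finset.sum_congr rfl
      intro i _
      ring
    rw [e, inv_mul_le_iff₀ hc] at this
    linarith
  · intro h y hy
    have := h y hy
    have e : ∑ i, y i * (c⁻¹ * z i) = c⁻¹ * ∑ i, y i * z i := by
      rw [Finset.mul_sum]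
      apply Finset.sum_congr rfl
      intro i _
      ring
    rw [e, inv_mul_le_iff₀ hc]
    linarith

theorem polar_abs {n : ℕ} {P : Set (Fin n → ℝ)} (hS : Solid P) {z : Fin n → ℝ}
    (hz : z ∈ polar P) {y : Fin n → ℝ} (hy : y ∈ P) : ∑ i, |y i| * |z i| ≤ 1 := by
  set y' : Fin n → ℝ := fun i => if 0 ≤ z i then |y i| else -|y i| with hy'
  have h1 : y' ∈ P := by
    apply hS y hy
    intro i
    rw [hy']
    dsimp only
    split_ifs <;> simp
  have h2 := hz y' h1
  have e : ∑ i, |y i| * |z i| = ∑ i, y' i * z i := by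
    apply Finset.sum_congr rfl
    intro i _
    rw [hy']
    dsimp only
    split_ifs with h
    · rw [abs_of_nonneg h]
    · rw [abs_of_neg (not_le.1 h)]
      ring
  rw [e]
  exact h2

theorem mem_polar_of_abs {n : ℕ} {P : Set (Fin n → ℝ)} {z w : Fin n → ℝ}
    (hw : ∀ y ∈ P, ∑ i, |y i| * w i ≤ 1) (hzw : ∀ i, |z i| ≤ w i) : z ∈ polar P := by
  intro y hy
  refine le_trans ?_ (hw y hy)
  apply Finset.sum_le_sum
  intro i _
  calc y i * z i ≤ |y i * z i| := le_abs_self _
    _ = |y i| * |z i| := abs_mul _ _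
    _ ≤ _ := mul_le_mul_of_nonneg_left (hzw i) (abs_nonneg _)

/-- truncation towards zero -/
noncomputable def tr (t : ℝ) : ℤ := if 0 ≤ t then ⌊t⌋ else -⌊-t⌋

theorem tr_abs_le (t : ℝ) : |((tr t : ℤ) : ℝ)| ≤ |t| := by
  unfold tr
  split_ifs with h
  · have h1 : (0:ℤ) ≤ ⌊t⌋ := Int.floor_nonneg.2 h
    have h2 : (0:ℝ) ≤ (⌊t⌋ : ℝ) := by exact_mod_cast h1
    rw [abs_of_nonneg h2, abs_of_nonneg h]
    exact Int.floor_le t
  · push Not at h
    have h1 : (0:ℤ) ≤ ⌊-t⌋ := Int.floor_nonneg.2 (by linarith)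
    have h2 : (0:ℝ) ≤ (⌊-t⌋ : ℝ) := by exact_mod_cast h1
    push_cast
    rw [abs_neg, abs_of_nonneg h2, abs_of_neg h]
    exact Int.floor_le _

theorem tr_sub_abs_le (t : ℝ) : |t - (tr t : ℝ)| ≤ 1 := by
  unfold tr
  split_ifs with h
  · rw [abs_le]
    have h1 := Int.floor_le t
    have h2 := Int.lt_floor_add_one t
    constructor <;> linarith
  · push_cast
    rw [abs_le]
    have h1 := Int.floor_le (-t)
    have h2 := Int.lt_floor_add_one (-t)
    constructor <;> linarith

theorem geo_sum (m : ℕ) :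
    ∑ j ∈ Finset.Icc (-(m : ℤ)) m, (1 / 2 : ℝ) ^ j.natAbs ≤ 3 - 2 * (1 / 2) ^ m := by
  induction m with
  | zero => norm_num
  | succ m ih =>
    have e : Finset.Icc (-((m + 1 : ℕ) : ℤ)) ((m + 1 : ℕ) : ℤ) =
        insert ((m + 1 : ℕ) : ℤ) (insert (-((m + 1 : ℕ) : ℤ)) (Finset.Icc (-(m : ℤ)) m)) := by
      ext j
      simp only [Finset.mem_Icc, Finset.mem_insert]
      push_cast
      omega
    rw [e, Finset.sum_insert, Finset.sum_insert]
    · have h1 : ((m + 1 : ℕ) : ℤ).natAbs = m + 1 := Int.natAbs_natCast _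
      have h2 : (-((m + 1 : ℕ) : ℤ)).natAbs = m + 1 := by rw [Int.natAbs_neg, Int.natAbs_natCast]
      rw [h1, h2, pow_succ]
      linarith
    · simp only [Finset.mem_Icc]
      push_cast
      omega
    · simp only [Finset.mem_insert, Finset.mem_Icc]
      push_cast
      omega

theorem count_l1 {n : ℕ} (J : Finset (Fin n)) (k : ℕ) (S : Finset (Fin n → ℤ))
    (h0 : ∀ a ∈ S, ∀ i, i ∉ J → a i = 0) (h1 : ∀ a ∈ S, ∑ i, (a i).natAbs ≤ k) :
    S.card ≤ 2 ^ k * 3 ^ J.card := by
  have hsub : S ⊆ Fintype.piFinset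
      (fun i => if i ∈ J then Finset.Icc (-(k : ℤ)) k else {0}) := by
    intro a ha
    rw [Fintype.mem_piFinset]
    intro i
    split_ifs with hi
    · have h2 : (a i).natAbs ≤ k :=
        le_trans (Finset.single_le_sum (f := fun i => (a i).natAbs) (fun _ _ => Nat.zero_le _)
          (Finset.mem_univ i)) (h1 a ha)
      rw [Finset.mem_Icc]
      omega
    · rw [Finset.mem_singleton]
      exact h0 a ha i hi
  have h2 : (S.card : ℝ) * (1 / 2) ^ k ≤ 3 ^ J.card := by
    calc (S.card : ℝ) * (1 / 2) ^ k = ∑ a ∈ S, (1 / 2 : ℝ) ^ k := by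
          rw [Finset.sum_const, nsmul_eq_mul]
      _ ≤ ∑ a ∈ S, ∏ i, (1 / 2 : ℝ) ^ (a i).natAbs := by
          apply Finset.sum_le_sum
          intro a ha
          rw [Finset.prod_pow_eq_pow_sum]
          exact pow_le_pow_of_le_one (by norm_num) (by norm_num) (h1 a ha)
      _ ≤ ∑ a ∈ Fintype.piFinset
          (fun i => if i ∈ J then Finset.Icc (-(k : ℤ)) k else {0}),
            ∏ i, (1 / 2 : ℝ) ^ (a i).natAbs := by
          apply Finset.sum_le_sum_of_subset_of_nonneg hsub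
          intro a _ _
          positivity
      _ = ∏ i, ∑ j ∈ (if i ∈ J then Finset.Icc (-(k : ℤ)) k else {0}),
            (1 / 2 : ℝ) ^ j.natAbs := by
          rw [Finset.prod_univ_sum]
      _ ≤ ∏ i, (if i ∈ J then (3:ℝ) else 1) := by
          apply Finset.prod_le_prod
          · intro i _
            positivity
          · intro i _
            split_ifs with hi
            · refine le_trans (geo_sum k) ?_
              have : (0:ℝ) ≤ 2 * (1 / 2) ^ k := by positivity
              linarith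
            · simp
      _ = 3 ^ J.card := by
          rw [Finset.prod_ite]
          simp
  have h3 : (S.card : ℝ) ≤ 2 ^ k * 3 ^ J.card := by
    have h4 : (1 / 2 : ℝ) ^ k * 2 ^ k = 1 := by
      rw [← mul_pow]
      norm_num
    calc (S.card : ℝ) = S.card * (1 / 2) ^ k * 2 ^ k := by rw [mul_assoc, h4, mul_one]
      _ ≤ 3 ^ J.card * 2 ^ k := mul_le_mul_of_nonneg_right h2 (by positivity)
      _ = _ := by ring
  exact_mod_cast h3

end Vale.Agent.H13.ED
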