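import Mathlib

/-! Covering numbers and polars (definitions used by the hand-in). -/

namespace Vale.Agent.H13.ED

open Pointwise

/-- `s` is a set of centres of translates of `B` covering `A`. -/
def Covers {n : ℕ} (A B : Set (Fin n → ℝ)) (s : Finset (Fin n → ℝ)) : Prop :=
  A ⊆ ⋃ x ∈ s, x +ᵥ B

/-- The covering number `N(A,B)`: the least number of translates `x + B` whose union
contains `A`. -/
noncomputable def coveringNumber {n : ℕ} (A B : Set (Fin n → ℝ)) : ℕ :=
  sInf {m : ℕ | ∃ s : Finset (Fin n → ℝ), s.card = m ∧ Covers A B s}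

/-- The polar `K° = {y : ⟨x,y⟩ ≤ 1 for all x ∈ K}`. -/
def polar {n : ℕ} (K : Set (Fin n → ℝ)) : Set (Fin n → ℝ) :=
  {y | ∀ x ∈ K, ∑ i, x i * y i ≤ 1}

/-- Origin-symmetric convex bodies of `ℝ^n`. -/
structure SymmetricConvexBody {n : ℕ} (K : Set (Fin n → ℝ)) : Prop where
  convex : Convex ℝ K
  compact : IsCompact K
  interior_nonempty : (interior K).Nonempty
  symm : -K = K

/-- `K` is unconditional in the basis `v`: it is invariant under changes of sign of the
coordinates with respect to `v`. -/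
def Unconditional {n : ℕ} (v : Module.Basis (Fin n) ℝ (Fin n → ℝ)) (K : Set (Fin n → ℝ)) : Prop :=
  ∀ x ∈ K, ∀ ε : Fin n → ℝ, (∀ i, ε i = 1 ∨ ε i = -1) → ∑ i, (ε i * v.repr x i) • v i ∈ K

/-- The cross-polytope with vertices `±v i`. -/
def crossPolytope {n : ℕ} (v : Module.Basis (Fin n) ℝ (Fin n → ℝ)) : Set (Fin n → ℝ) :=
  {x | ∑ i, |v.repr x i| ≤ 1}

/-- The parallelotope with edge directions `v i`, centred at the origin. -/
def parallelotope {n : ℕ} (v : Module.Basis (Fin n) ℝ (Fin n → ℝ)) : Set (Fin n → ℝ) :=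
  {x | ∀ i, |v.repr x i| ≤ 1}

theorem covers_iff {n : ℕ} {A B : Set (Fin n → ℝ)} {s : Finset (Fin n → ℝ)} :
    Covers A B s ↔ ∀ a ∈ A, ∃ x ∈ s, a - x ∈ B := by
  unfold Covers
  constructor
  · intro h a ha
    have := h ha
    simp only [Set.mem_iUnion, exists_prop] at this
    obtain ⟨x, hx, hax⟩ := this
    refine ⟨x, hx, ?_⟩
    rw [Set.mem_vadd_set] at hax
    obtain ⟨y, hy, rfl⟩ := hax
    simpa using hy
  · intro h a ha
    obtain ⟨x, hx, hax⟩ := h a ha
    simp only [Set.mem_iUnion, exists_prop]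
    refine ⟨x, hx, ?_⟩
    rw [Set.mem_vadd_set]
    exact ⟨a - x, hax, by simp⟩

theorem coveringNumber_le {n : ℕ} {A B : Set (Fin n → ℝ)} {s : Finset (Fin n → ℝ)}
    (h : Covers A B s) : coveringNumber A B ≤ s.card :=
  Nat.sInf_le ⟨s, rfl, h⟩

theorem exists_covers {n : ℕ} {A B : Set (Fin n → ℝ)} (hA : Bornology.IsBounded A)
    (hB : (interior B).Nonempty) : ∃ s : Finset (Fin n → ℝ), Covers A B s := by
  obtain ⟨b, hb⟩ := hB
  obtain ⟨r, hr, hball⟩ := Metric.isOpen_iff.1 isOpen_interior b hb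
  have htb : TotallyBounded A :=
    (Bornology.IsBounded.isCompact_closure hA).totallyBounded.subset subset_closure
  obtain ⟨t, ht, hcov⟩ := Metric.totallyBounded_iff.1 htb r hr
  refine ⟨(ht.toFinset).image (fun y => y - b), ?_⟩
  rw [covers_iff]
  intro a ha
  have := hcov ha
  simp only [Set.mem_iUnion, exists_prop] at this
  obtain ⟨y, hy, hay⟩ := this
  refine ⟨y - b, Finset.mem_image.2 ⟨y, ht.mem_toFinset.2 hy, rfl⟩, ?_⟩
  apply interior_subset
  apply hball
  rw [Metric.mem_ball] at hay ⊢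
  rw [dist_eq_norm] at hay ⊢
  convert hay using 2
  abel

theorem exists_covers_card {n : ℕ} {A B : Set (Fin n → ℝ)} (hA : Bornology.IsBounded A)
    (hB : (interior B).Nonempty) :
    ∃ s : Finset (Fin n → ℝ), s.card = coveringNumber A B ∧ Covers A B s := by
  have h : {m : ℕ | ∃ s : Finset (Fin n → ℝ), s.card = m ∧ Covers A B s}.Nonempty := by
    obtain ⟨s, hs⟩ := exists_covers hA hB
    exact ⟨s.card, s, rfl, hs⟩
  exact Nat.sInf_mem h

theorem coveringNumber_pos {n : ℕ} {A B : Set (Fin n → ℝ)} (hA : Bornology.IsBounded A)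
    (hB : (interior B).Nonempty) (hne : A.Nonempty) : 1 ≤ coveringNumber A B := by
  obtain ⟨s, hs, hc⟩ := exists_covers_card hA hB
  rw [← hs]
  rw [covers_iff] at hc
  obtain ⟨a, ha⟩ := hne
  obtain ⟨x, hx, -⟩ := hc a ha
  exact Finset.card_pos.2 ⟨x, hx⟩

end Vale.Agent.H13.ED
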