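import Vale.Agent.H13.ED.Polar

/-! Transport to an arbitrary basis. -/

namespace Vale.Agent.H13.ED

open Pointwise Finset

variable {n : ℕ}

/-- flipping the sign of one coordinate -/
def SignInv (U : Set (Fin n → ℝ)) : Prop :=
  ∀ x ∈ U, ∀ ε : Fin n → ℝ, (∀ i, ε i = 1 ∨ ε i = -1) → (fun i => ε i * x i) ∈ U

theorem solid_of_signInv {U : Set (Fin n → ℝ)} (hU : SignInv U) (hc : Convex ℝ U) : Solid U := by
  intro y hy z hz
  have key : ∀ F : Finset (Fin n), (fun i => if i ∈ F then z i else y i) ∈ U := by
    intro F
    induction F using Finset.induction_on with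
    | empty => simpa using hy
    | insert j F hj ih =>
      set w : Fin n → ℝ := fun i => if i ∈ F then z i else y i with hw
      have h1 := hU w ih (fun i => if i = j then -1 else 1) (fun i => by
        split_ifs
        · right; rfl
        · left; rfl)
      by_cases hyj : y j = 0
      · have hzj : z j = 0 := by
          have := hz j
          rw [hyj, abs_zero] at this
          exact abs_nonpos_iff.1 this
        have : (fun i => if i ∈ insert j F then z i else y i) = w := by
          funext i
          rw [hw]
          by_cases hij : i = j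
          · subst hij
            simp [hj, hyj, hzj]
          · simp [hij]
        rw [this]
        exact ih
      · set θ : ℝ := z j / y j with hθ
        have hθ1 : |θ| ≤ 1 := by
          rw [hθ, abs_div, div_le_one (abs_pos.2 hyj)]
          exact hz j
        rw [abs_le] at hθ1
        have h2 := hc ih h1 (show 0 ≤ (1 + θ) / 2 by linarith [hθ1.1])
          (show 0 ≤ (1 - θ) / 2 by linarith [hθ1.2]) (by ring)
        convert h2 using 1
        funext i
        simp only [Pi.add_apply, Pi.smul_apply, smul_eq_mul]
        by_cases hij : i = j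
        · subst hij
          have hwi : w i = y i := by rw [hw]; simp [hj]
          rw [hwi]
          simp only [Finset.mem_insert_self, if_true]
          rw [hθ]
          field_simp
          ring
        · have hwi : (if i ∈ insert j F then z i else y i) = w i := by
            rw [hw]
            simp [hij]
          rw [hwi]
          simp only [hij, if_false]
          ring
  have := key Finset.univ
  simpa using this

variable (v : Module.Basis (Fin n) ℝ (Fin n → ℝ))

/-- the adjoint of `c ↦ ∑ c_i v_i` -/
noncomputable def adj : (Fin n → ℝ) →ₗ[ℝ] (Fin n → ℝ) where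
  toFun y i := ∑ j, v i j * y j
  map_add' y z := by
    funext i
    simp [mul_add, Finset.sum_add_distrib]
  map_smul' c y := by
    funext i
    simp only [Pi.smul_apply, smul_eq_mul, RingHom.id_apply, Finset.mul_sum]
    apply Finset.sum_congr rfl
    intro j _
    ring

theorem pairing (c y : Fin n → ℝ) : ∑ j, (∑ i, c i • v i) j * y j = ∑ i, c i * adj v y i := by
  have h1 : ∀ j, (∑ i, c i • v i) j = ∑ i, c i * v i j := by
    intro j
    rw [Finset.sum_apply]
    apply Finset.sum_congr rfl
    intro i _
    simp
  simp only [h1, Finset.sum_mul]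
  rw [Finset.sum_comm]
  apply Finset.sum_congr rfl
  intro i _
  show _ = c i * ∑ j, v i j * y j
  rw [Finset.mul_sum]
  apply Finset.sum_congr rfl
  intro j _
  ring

theorem adj_injective : Function.Injective (adj v) := by
  rw [injective_iff_map_eq_zero]
  intro y hy
  have h1 := pairing v (v.repr y) y
  rw [v.sum_repr y, hy] at h1
  simp only [Pi.zero_apply, mul_zero, Finset.sum_const_zero] at h1
  have h2 : ∀ j ∈ (Finset.univ : Finset (Fin n)), y j * y j = 0 :=
    (Finset.sum_eq_zero_iff_of_nonneg (fun j _ => mul_self_nonneg (y j))).1 h1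
  funext j
  exact mul_self_eq_zero.1 (h2 j (Finset.mem_univ j))

/-- the adjoint as a linear equivalence -/
noncomputable def adjE : (Fin n → ℝ) ≃ₗ[ℝ] (Fin n → ℝ) :=
  LinearEquiv.ofInjectiveEndo (adj v) (adj_injective v)

theorem polar_preimage (U : Set (Fin n → ℝ)) :
    polar (v.equivFun ⁻¹' U) = adjE v ⁻¹' polar U := by
  ext y
  constructor
  · intro h c hc
    have h1 : (v.equivFun.symm c) ∈ v.equivFun ⁻¹' U := by
      show v.equivFun (v.equivFun.symm c) ∈ U
      rw [LinearEquiv.apply_symm_apply]
      exact hc
    have h2 := h _ h1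
    rw [Module.Basis.equivFun_symm_apply, pairing] at h2
    exact h2
  · intro h x hx
    have h2 := h (v.equivFun x) hx
    have h3 := pairing v (v.equivFun x) y
    rw [v.sum_equivFun x] at h3
    rw [h3]
    exact h2

theorem smul_preimage (E : (Fin n → ℝ) ≃ₗ[ℝ] (Fin n → ℝ)) (A : Set (Fin n → ℝ)) {t : ℝ}
    (ht : t ≠ 0) : t • (E ⁻¹' A) = E ⁻¹' (t • A) := by
  ext x
  rw [Set.mem_smul_set_iff_inv_smul_mem₀ ht, Set.mem_preimage, Set.mem_preimage,
    Set.mem_smul_set_iff_inv_smul_mem₀ ht, map_smul]

theorem crossPolytope_eq : crossPolytope v = v.equivFun ⁻¹' cross n := by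
  ext x
  rfl

theorem parallelotope_eq : parallelotope v = v.equivFun ⁻¹' cube n := by
  ext x
  rfl

/-- coordinates of an unconditional body -/
theorem body_coords {K : Set (Fin n → ℝ)} (hK : SymmetricConvexBody K) (hu : Unconditional v K) :
    ∃ U : Set (Fin n → ℝ), K = v.equivFun ⁻¹' U ∧ Solid U ∧ Convex ℝ U ∧ IsCompact U ∧
      (0 : Fin n → ℝ) ∈ interior U := by
  have h0 : (0 : Fin n → ℝ) ∈ interior K := by
    obtain ⟨x, hx⟩ := hK.interior_nonempty
    have hx' : -x ∈ interior K := by
      have h1 : interior ((-1 : ℝ) • K) = (-1 : ℝ) • interior K :=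
        interior_smul₀ (by norm_num) K
      have h2 : (-1 : ℝ) • K = K := by
        conv_rhs => rw [← hK.symm]
        ext z
        rw [Set.mem_smul_set_iff_inv_smul_mem₀ (by norm_num)]
        norm_num
      rw [h2] at h1
      rw [h1]
      exact ⟨x, hx, by simp⟩
    have := hK.convex.interior hx hx' (show (0:ℝ) ≤ 1 / 2 by norm_num)
      (show (0:ℝ) ≤ 1 / 2 by norm_num) (by norm_num)
    simpa using this
  set U : Set (Fin n → ℝ) := v.equivFun '' K with hU
  have hKU : K = v.equivFun ⁻¹' U := by
    rw [hU, Set.preimage_image_eq _ v.equivFun.injective]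
  have hconv : Convex ℝ U := hK.convex.is_linear_image v.equivFun.toLinearMap.isLinear
  refine ⟨U, hKU, ?_, hconv, ?_, ?_⟩
  · apply solid_of_signInv _ hconv
    rintro _ ⟨x, hx, rfl⟩ ε hε
    refine ⟨_, hu x hx ε hε, ?_⟩
    funext i
    have := v.equivFun.apply_symm_apply (fun i => ε i * v.repr x i)
    rw [Module.Basis.equivFun_symm_apply] at this
    rw [this]
    rfl
  · exact hK.compact.image v.equivFun.toContinuousLinearEquiv.continuous
  · have h1 : interior U = v.equivFun '' interior K := by
      have := v.equivFun.toContinuousLinearEquiv.toHomeomorph.image_interior K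
      exact this.symm
    rw [h1]
    exact ⟨0, h0, map_zero _⟩

theorem log_le_of_pow {N M b : ℕ} (hM : 1 ≤ M) (h : N ≤ M ^ b) :
    Real.log N ≤ b * Real.log M := by
  rcases Nat.eq_zero_or_pos N with h0 | h0
  · rw [h0]
    simp
    have : 0 ≤ Real.log M := Real.log_nonneg (by exact_mod_cast hM)
    positivity
  · have h1 : (N : ℝ) ≤ (M : ℝ) ^ b := by exact_mod_cast h
    have h2 := Real.log_le_log (by exact_mod_cast h0) h1
    rwa [Real.log_pow] at h2

end Vale.Agent.H13.ED
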