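import Vale.Agent.H13.ED.Core2

/-! Polars, bipolar theorem, scaling and linear transport. -/

namespace Vale.Agent.H13.ED

open Pointwise Finset

variable {n : ℕ}

theorem polar_closed (K : Set (Fin n → ℝ)) : IsClosed (polar K) := by
  have : polar K = ⋂ x ∈ K, {y : Fin n → ℝ | ∑ i, x i * y i ≤ 1} := by
    ext y
    simp [polar]
  rw [this]
  apply isClosed_biInter
  intro x _
  apply isClosed_le _ continuous_const
  fun_prop

theorem polar_convex (K : Set (Fin n → ℝ)) : Convex ℝ (polar K) := by
  intro y hy z hz a b ha hb hab x hx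
  have h1 := hy x hx
  have h2 := hz x hx
  have : ∑ i, x i * (a • y + b • z) i = a * ∑ i, x i * y i + b * ∑ i, x i * z i := by
    rw [Finset.mul_sum, Finset.mul_sum, ← Finset.sum_add_distrib]
    apply Finset.sum_congr rfl
    intro i _
    simp
    ring
  rw [this]
  nlinarith

theorem zero_mem_polar (K : Set (Fin n → ℝ)) : (0 : Fin n → ℝ) ∈ polar K := by
  intro x _
  simp

theorem polar_solid {K : Set (Fin n → ℝ)} (hS : Solid K) : Solid (polar K) := by
  intro z hz w hw
  apply mem_polar_of_abs (w := fun i => |z i|) _ hw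
  intro y hy
  exact polar_abs hS hz hy

theorem polar_bounded {K : Set (Fin n → ℝ)} (h0 : (0 : Fin n → ℝ) ∈ interior K) :
    Bornology.IsBounded (polar K) := by
  obtain ⟨r, hr, hball⟩ := Metric.isOpen_iff.1 isOpen_interior _ h0
  rw [Metric.isBounded_iff_subset_closedBall 0]
  refine ⟨2 / r, ?_⟩
  intro y hy
  rw [mem_closedBall_zero_iff, pi_norm_le_iff_of_nonneg (by positivity)]
  intro i
  have hmem : ∀ t : ℝ, |t| = r / 2 → t * y i ≤ 1 := by
    intro t ht
    have h1 : (Pi.single i t : Fin n → ℝ) ∈ K := by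
      apply interior_subset
      apply hball
      rw [mem_ball_zero_iff, Pi.norm_single, Real.norm_eq_abs, ht]
      linarith
    have h2 := hy _ h1
    have h3 : ∑ j, (Pi.single i t : Fin n → ℝ) j * y j = t * y i := by
      rw [Finset.sum_eq_single i]
      · simp
      · intro j _ hj
        simp [Pi.single_eq_of_ne hj]
      · simp
    rw [h3] at h2
    exact h2
  rw [Real.norm_eq_abs, abs_le]
  have h1 := hmem (r / 2) (abs_of_pos (by linarith))
  have h2 := hmem (-(r / 2)) (by rw [abs_neg]; exact abs_of_pos (by linarith))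
  constructor
  · rw [neg_le, le_div_iff₀ hr]
    nlinarith
  · rw [le_div_iff₀ hr]
    nlinarith

theorem polar_interior {K : Set (Fin n → ℝ)} (hb : Bornology.IsBounded K) :
    (0 : Fin n → ℝ) ∈ interior (polar K) := by
  obtain ⟨R0, hR0⟩ := hb.exists_norm_le
  set R : ℝ := max R0 1 with hR
  have hR1 : 1 ≤ R := le_max_right _ _
  have hRb : ∀ x ∈ K, ‖x‖ ≤ R := fun x hx => le_trans (hR0 x hx) (le_max_left _ _)
  rw [mem_interior_iff_mem_nhds, Metric.mem_nhds_iff]
  refine ⟨1 / (R * (n + 1)), by positivity, ?_⟩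
  intro y hy x hx
  rw [mem_ball_zero_iff] at hy
  calc ∑ i, x i * y i ≤ ∑ _i : Fin n, R * (1 / (R * (n + 1))) := by
        apply Finset.sum_le_sum
        intro i _
        have h1 : |x i| ≤ R := le_trans (norm_le_pi_norm x i) (hRb x hx)
        have h2 : |y i| ≤ 1 / (R * (n + 1)) := le_trans (norm_le_pi_norm y i) hy.le
        calc x i * y i ≤ |x i * y i| := le_abs_self _
          _ = |x i| * |y i| := abs_mul _ _
          _ ≤ _ := mul_le_mul h1 h2 (abs_nonneg _) (by linarith)
    _ = n / (n + 1) := by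
        rw [Finset.sum_const, Finset.card_univ, Fintype.card_fin, nsmul_eq_mul]
        field_simp
    _ ≤ 1 := by
        rw [div_le_one (by positivity)]
        linarith

theorem bipolar {K : Set (Fin n → ℝ)} (hc : Convex ℝ K) (hcl : IsClosed K)
    (h0 : (0 : Fin n → ℝ) ∈ K) : polar (polar K) = K := by
  apply Set.Subset.antisymm
  · intro x hx
    by_contra hxK
    obtain ⟨f, u, hf1, hf2⟩ := geometric_hahn_banach_closed_point hc hcl hxK
    have hu : 0 < u := by
      have := hf1 0 h0
      simpa using this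
    have hfx : ∀ a : Fin n → ℝ, ∑ i, a i * (f (Pi.single i 1) / u) = f a / u := by
      intro a
      have h1 : f a = ∑ i, a i * f (Pi.single i 1) := by
        conv_lhs => rw [← Finset.univ_sum_single a]
        rw [map_sum]
        apply Finset.sum_congr rfl
        intro i _
        have : (Pi.single i (a i) : Fin n → ℝ) = a i • Pi.single i 1 := by
          rw [← Pi.single_smul]
          simp
        rw [this, map_smul, smul_eq_mul]
      rw [h1, Finset.sum_div]
      apply Finset.sum_congr rfl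
      intro i _
      ring
    have hy : (fun i => f (Pi.single i 1) / u) ∈ polar K := by
      intro a ha
      rw [hfx, div_le_one hu]
      exact (hf1 a ha).le
    have h2 := hx _ hy
    have h3 : ∑ i, f (Pi.single i 1) / u * x i = f x / u := by
      rw [← hfx x]
      apply Finset.sum_congr rfl
      intro i _
      ring
    rw [h3, div_le_one hu] at h2
    linarith
  · intro x hx y hy
    have := hy x hx
    calc ∑ i, y i * x i = ∑ i, x i * y i := by
          apply Finset.sum_congr rfl
          intro i _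
          ring
      _ ≤ 1 := this

theorem polar_cross : polar (cross n) = cube n := by
  apply Set.Subset.antisymm
  · intro y hy i
    have hmem : ∀ t : ℝ, |t| = 1 → t * y i ≤ 1 := by
      intro t ht
      have h1 : (Pi.single i t : Fin n → ℝ) ∈ cross n := by
        show ∑ j, |(Pi.single i t : Fin n → ℝ) j| ≤ 1
        rw [Finset.sum_eq_single i]
        · simp [ht]
        · intro j _ hj
          simp [Pi.single_eq_of_ne hj]
        · simp
      have h2 := hy _ h1
      have h3 : ∑ j, (Pi.single i t : Fin n → ℝ) j * y j = t * y i := by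
        rw [Finset.sum_eq_single i]
        · simp
        · intro j _ hj
          simp [Pi.single_eq_of_ne hj]
        · simp
      rw [h3] at h2
      exact h2
    rw [abs_le]
    have h1 := hmem 1 (by simp)
    have h2 := hmem (-1) (by simp)
    constructor <;> linarith
  · intro y hy x hx
    have hx1 : ∑ i, |x i| ≤ 1 := hx
    refine le_trans (Finset.sum_le_sum ?_) hx1
    intro i _
    calc x i * y i ≤ |x i * y i| := le_abs_self _
      _ = |x i| * |y i| := abs_mul _ _
      _ ≤ |x i| * 1 := mul_le_mul_of_nonneg_left (hy i) (abs_nonneg _)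
      _ = |x i| := mul_one _

theorem cross_solid : Solid (cross n) := by
  intro y hy z hz
  have hy1 : ∑ i, |y i| ≤ 1 := hy
  exact le_trans (Finset.sum_le_sum (fun i _ => hz i)) hy1

theorem cube_solid : Solid (cube n) := by
  intro y hy z hz i
  exact le_trans (hz i) (hy i)

theorem cross_closed : IsClosed (cross n) := by
  apply isClosed_le _ continuous_const
  fun_prop

theorem cross_convex : Convex ℝ (cross n) := by
  intro y hy z hz a b ha hb hab
  have hy1 : ∑ i, |y i| ≤ 1 := hy
  have hz1 : ∑ i, |z i| ≤ 1 := hz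
  show ∑ i, |(a • y + b • z) i| ≤ 1
  calc ∑ i, |(a • y + b • z) i| ≤ ∑ i, (a * |y i| + b * |z i|) := by
        apply Finset.sum_le_sum
        intro i _
        simp only [Pi.add_apply, Pi.smul_apply, smul_eq_mul]
        refine le_trans (abs_add_le _ _) ?_
        rw [abs_mul, abs_mul, abs_of_nonneg ha, abs_of_nonneg hb]
    _ = a * ∑ i, |y i| + b * ∑ i, |z i| := by
        rw [Finset.sum_add_distrib, Finset.mul_sum, Finset.mul_sum]
    _ ≤ 1 := by nlinarith

theorem polar_cube : polar (cube n) = cross n := by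
  rw [← polar_cross, bipolar cross_convex cross_closed]
  show ∑ i, |(0 : Fin n → ℝ) i| ≤ 1
  simp

theorem cross_bounded : Bornology.IsBounded (cross n) := by
  rw [Metric.isBounded_iff_subset_closedBall 0]
  refine ⟨1, ?_⟩
  intro y hy
  rw [mem_closedBall_zero_iff, pi_norm_le_iff_of_nonneg (by norm_num)]
  intro i
  have hy1 : ∑ i, |y i| ≤ 1 := hy
  exact le_trans (Finset.single_le_sum (f := fun i => |y i|) (fun _ _ => abs_nonneg _)
    (Finset.mem_univ i)) hy1

theorem cube_interior {t : ℝ} (ht : 0 < t) : (interior (t • cube n)).Nonempty := by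
  refine ⟨0, ?_⟩
  rw [mem_interior_iff_mem_nhds, Metric.mem_nhds_iff]
  refine ⟨t, ht, ?_⟩
  intro y hy
  rw [mem_ball_zero_iff] at hy
  rw [Set.mem_smul_set_iff_inv_smul_mem₀ ht.ne']
  intro i
  simp only [Pi.smul_apply, smul_eq_mul]
  rw [abs_mul, abs_of_pos (inv_pos.2 ht), inv_mul_le_iff₀ ht, mul_one]
  exact le_trans (norm_le_pi_norm y i) hy.le

theorem polar_smul {K : Set (Fin n → ℝ)} {t : ℝ} (ht : 0 < t) : polar (t • K) = t⁻¹ • polar K := by
  ext y
  rw [mem_smul_polar (inv_pos.2 ht)]
  constructor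
  · intro h x hx
    have := h (t • x) (Set.smul_mem_smul_set hx)
    have e : ∑ i, (t • x) i * y i = t * ∑ i, x i * y i := by
      rw [Finset.mul_sum]
      apply Finset.sum_congr rfl
      intro i _
      simp
      ring
    rw [e] at this
    calc ∑ i, x i * y i = t⁻¹ * (t * ∑ i, x i * y i) := by
          field_simp
      _ ≤ t⁻¹ * 1 := mul_le_mul_of_nonneg_left this (inv_pos.2 ht).le
      _ = t⁻¹ := mul_one _
  · intro h x hx
    obtain ⟨x', hx', rfl⟩ := hx
    have := h x' hx'
    have e : ∑ i, (t • x') i * y i = t * ∑ i, x' i * y i := by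
      rw [Finset.mul_sum]
      apply Finset.sum_congr rfl
      intro i _
      simp
      ring
    show ∑ i, (t • x') i * y i ≤ 1
    rw [e]
    calc t * ∑ i, x' i * y i ≤ t * t⁻¹ := mul_le_mul_of_nonneg_left this ht.le
      _ = 1 := mul_inv_cancel₀ ht.ne'

theorem covers_smul {A B : Set (Fin n → ℝ)} {s : Finset (Fin n → ℝ)} (h : Covers A B s) (t : ℝ) :
    Covers (t • A) (t • B) (s.image (fun x => t • x)) := by
  rw [covers_iff] at h ⊢
  rintro _ ⟨a, ha, rfl⟩
  obtain ⟨x, hx, hax⟩ := h a ha
  refine ⟨t • x, Finset.mem_image_of_mem _ hx, ?_⟩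
  exact ⟨a - x, hax, by simp [smul_sub]⟩

theorem covers_mono {A B B' : Set (Fin n → ℝ)} {s : Finset (Fin n → ℝ)} (h : Covers A B s)
    (hB : B ⊆ B') : Covers A B' s := by
  rw [covers_iff] at h ⊢
  intro a ha
  obtain ⟨x, hx, hax⟩ := h a ha
  exact ⟨x, hx, hB hax⟩

theorem smul_subset_of_convex {U : Set (Fin n → ℝ)} (hc : Convex ℝ U)
    (h0 : (0 : Fin n → ℝ) ∈ U) {a b : ℝ} (ha : 0 ≤ a) (hb : 0 < b) (hab : a ≤ b) :
    a • U ⊆ b • U := by
  rintro _ ⟨x, hx, rfl⟩
  refine ⟨(a / b) • x, ?_, ?_⟩
  · have h1 : a / b ≤ 1 := by rw [div_le_one hb]; exact hab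
    have h2 : 0 ≤ a / b := by positivity
    have := hc hx h0 h2 (show 0 ≤ 1 - a / b by linarith) (by ring)
    simpa using this
  · show b • (a / b) • x = a • x
    rw [smul_smul]
    congr 1
    field_simp

theorem solid_smul {K : Set (Fin n → ℝ)} (hS : Solid K) {t : ℝ} (ht : 0 < t) : Solid (t • K) := by
  rintro _ ⟨y, hy, rfl⟩ z hz
  refine ⟨t⁻¹ • z, ?_, ?_⟩
  · apply hS y hy
    intro i
    have := hz i
    simp only [Pi.smul_apply, smul_eq_mul] at this ⊢
    rw [abs_mul, abs_of_pos ht] at this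
    rw [abs_mul, abs_of_pos (inv_pos.2 ht), inv_mul_le_iff₀ ht]
    exact this
  · show t • t⁻¹ • z = z
    rw [smul_smul, mul_inv_cancel₀ ht.ne', one_smul]

section std

variable {U : Set (Fin n → ℝ)} (hS : Solid U) (hconv : Convex ℝ U) (hcomp : IsCompact U)
  (h0 : (0 : Fin n → ℝ) ∈ interior U)

include hS hconv hcomp h0

theorem polar_compact : IsCompact (polar U) :=
  Metric.isCompact_of_isClosed_isBounded (polar_closed U) (polar_bounded h0)

theorem stdA : coveringNumber (cross n) U ≤
    (coveringNumber (polar U) ((24:ℝ)⁻¹ • cube n)) ^ 16 := by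
  have h0' : (0 : Fin n → ℝ) ∈ U := interior_subset h0
  obtain ⟨s, hs, hc⟩ := exists_covers_card (polar_bounded h0)
    (cube_interior (n := n) (show (0:ℝ) < 24⁻¹ by norm_num))
  have h1 := covers_smul hc 24
  rw [smul_smul, mul_inv_cancel₀ (by norm_num : (24:ℝ) ≠ 0), one_smul] at h1
  obtain ⟨s', hs', hc'⟩ := core1 (P := (24:ℝ) • polar U)
    (solid_smul (polar_solid hS) (by norm_num)) ((polar_convex U).smul 24)
    ((polar_compact hS hconv hcomp h0).smul 24)
    (⟨0, 0, zero_mem_polar U, by simp⟩) h1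
  rw [polar_smul (by norm_num), bipolar hconv hcomp.isClosed h0', smul_smul] at hc'
  have h2 : ((6:ℝ) * 24⁻¹) • U ⊆ U := by
    have := smul_subset_of_convex hconv h0' (a := 6 * 24⁻¹) (b := 1) (by norm_num) (by norm_num)
      (by norm_num)
    simpa using this
  have h3 := coveringNumber_le (covers_mono hc' h2)
  have hpos : 1 ≤ coveringNumber (polar U) ((24:ℝ)⁻¹ • cube n) :=
    coveringNumber_pos (polar_bounded h0) (cube_interior (by norm_num)) ⟨0, zero_mem_polar U⟩
  calc coveringNumber (cross n) U ≤ s'.card := h3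
    _ ≤ (s.image (fun x => (24:ℝ) • x)).card ^ 8 := hs'
    _ ≤ s.card ^ 8 := Nat.pow_le_pow_left Finset.card_image_le 8
    _ = (coveringNumber (polar U) ((24:ℝ)⁻¹ • cube n)) ^ 8 := by rw [hs]
    _ ≤ _ := Nat.pow_le_pow_right hpos (by norm_num)

theorem stdB : coveringNumber (polar U) ((24:ℝ) • cube n) ≤ (coveringNumber (cross n) U) ^ 16 := by
  have h0' : (0 : Fin n → ℝ) ∈ U := interior_subset h0
  obtain ⟨s, hs, hc⟩ := exists_covers_card (n := n) cross_bounded ⟨0, h0⟩
  obtain ⟨s', hs', hc'⟩ := core2 (P := polar U) (polar_solid hS) (polar_bounded h0)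
    ⟨0, zero_mem_polar U⟩ (s := s) (by rw [bipolar hconv hcomp.isClosed h0']; exact hc)
  rw [← hs]
  exact le_trans (coveringNumber_le hc') hs'

theorem stdC : coveringNumber U (cube n) ≤
    (coveringNumber (cross n) ((24:ℝ)⁻¹ • polar U)) ^ 16 := by
  have hb : Bornology.IsBounded U := hcomp.isBounded
  have hint : (interior ((24:ℝ)⁻¹ • polar U)).Nonempty := by
    refine ⟨(24:ℝ)⁻¹ • 0, ?_⟩
    rw [interior_smul₀ (by norm_num : (24:ℝ)⁻¹ ≠ 0)]
    exact Set.smul_mem_smul_set (polar_interior hb)
  obtain ⟨s, hs, hc⟩ := exists_covers_card (n := n) cross_bounded hint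
  obtain ⟨s', hs', hc'⟩ := core2 (P := (24:ℝ) • U) (solid_smul hS (by norm_num))
    ((hcomp.smul (24:ℝ)).isBounded) ⟨(24:ℝ) • 0, 0, interior_subset h0, rfl⟩ (s := s)
    (by rw [polar_smul (by norm_num)]; exact hc)
  have h1 := covers_smul hc' (24:ℝ)⁻¹
  rw [smul_smul, smul_smul, inv_mul_cancel₀ (by norm_num : (24:ℝ) ≠ 0), one_smul, one_smul] at h1
  rw [← hs]
  exact le_trans (coveringNumber_le h1) (le_trans Finset.card_image_le hs')

theorem stdD : coveringNumber (cross n) ((24:ℝ) • polar U) ≤
    (coveringNumber U (cube n)) ^ 16 := by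
  have hb : Bornology.IsBounded U := hcomp.isBounded
  have hint : (interior (cube n)).Nonempty := by
    have := cube_interior (n := n) (t := 1) (by norm_num)
    rwa [one_smul] at this
  obtain ⟨s, hs, hc⟩ := exists_covers_card (n := n) hb hint
  obtain ⟨s', hs', hc'⟩ := core1 hS hconv hcomp ⟨0, interior_subset h0⟩ hc
  have h2 : (6:ℝ) • polar U ⊆ (24:ℝ) • polar U :=
    smul_subset_of_convex (polar_convex U) (zero_mem_polar U) (by norm_num) (by norm_num)
      (by norm_num)
  have hpos : 1 ≤ coveringNumber U (cube n) :=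
    coveringNumber_pos hb hint ⟨0, interior_subset h0⟩
  calc coveringNumber (cross n) ((24:ℝ) • polar U) ≤ s'.card := coveringNumber_le (covers_mono hc' h2)
    _ ≤ s.card ^ 8 := hs'
    _ = (coveringNumber U (cube n)) ^ 8 := by rw [hs]
    _ ≤ _ := Nat.pow_le_pow_right hpos (by norm_num)

end std

/-- linear invariance -/
theorem covers_preimage (E : (Fin n → ℝ) ≃ₗ[ℝ] (Fin n → ℝ)) {A B : Set (Fin n → ℝ)}
    {s : Finset (Fin n → ℝ)} : Covers (E ⁻¹' A) (E ⁻¹' B) s ↔ Covers A B (s.image E) := by
  rw [covers_iff, covers_iff]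
  constructor
  · intro h a ha
    obtain ⟨x, hx, hax⟩ := h (E.symm a) (by simpa using ha)
    refine ⟨E x, Finset.mem_image_of_mem _ hx, ?_⟩
    simpa using hax
  · intro h a ha
    obtain ⟨x, hx, hax⟩ := h (E a) ha
    obtain ⟨x', hx', rfl⟩ := Finset.mem_image.1 hx
    refine ⟨x', hx', ?_⟩
    simpa using hax

theorem coveringNumber_preimage (E : (Fin n → ℝ) ≃ₗ[ℝ] (Fin n → ℝ)) (A B : Set (Fin n → ℝ)) :
    coveringNumber (E ⁻¹' A) (E ⁻¹' B) = coveringNumber A B := by
  unfold coveringNumber
  congr 1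
  ext m
  constructor
  · rintro ⟨s, rfl, hs⟩
    exact ⟨s.image E, Finset.card_image_of_injective _ E.injective, (covers_preimage E).1 hs⟩
  · rintro ⟨s, rfl, hs⟩
    refine ⟨s.image E.symm, Finset.card_image_of_injective _ E.symm.injective, ?_⟩
    rw [covers_preimage E, Finset.image_image]
    convert hs
    ext x
    simp

end Vale.Agent.H13.ED
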