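import Vale.Agent.H13.ED.Defs

/-! The variational lemma: maximise `∑ x_i log (1 + |y_i|)` over a solid convex body. -/

namespace Vale.Agent.H13.ED

open Pointwise Finset

/-- `P` is solid (unconditional in the standard basis). -/
def Solid {n : ℕ} (P : Set (Fin n → ℝ)) : Prop :=
  ∀ y ∈ P, ∀ z : Fin n → ℝ, (∀ i, |z i| ≤ |y i|) → z ∈ P

theorem log_one_add_ge {u : ℝ} (hu : -1 < u) : u / (1 + u) ≤ Real.log (1 + u) := by
  have h := Real.one_sub_inv_le_log_of_pos (x := 1 + u) (by linarith)
  have : u / (1 + u) = 1 - (1 + u)⁻¹ := by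
    field_simp [show (1 + u) ≠ 0 by linarith]
    ring
  rw [this]
  exact h

theorem variational {n : ℕ} {P : Set (Fin n → ℝ)} (hS : Solid P) (hconv : Convex ℝ P)
    (hcomp : IsCompact P) (hne : P.Nonempty) (x : Fin n → ℝ) (hx : ∀ i, 0 ≤ x i)
    (hx1 : ∑ i, x i ≤ 1) :
    ∃ y0 ∈ P, (∀ i, 0 ≤ y0 i) ∧ ∀ y ∈ P, ∑ i, x i / (1 + y0 i) * |y i| ≤ 1 := by
  have hcont : Continuous (fun y : Fin n → ℝ => ∑ i, x i * Real.log (1 + |y i|)) := by
    apply continuous_finsetSum
    intro i _
    apply Continuous.mul continuous_const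
    apply Continuous.log
    · exact continuous_const.add (continuous_abs.comp (continuous_apply i))
    · intro y
      positivity
  obtain ⟨ys, hys, hmax⟩ := hcomp.exists_isMaxOn hne hcont.continuousOn
  set y0 : Fin n → ℝ := fun i => |ys i| with hy0
  have hy0P : y0 ∈ P := hS ys hys y0 (fun i => by rw [hy0]; simp)
  have hy0n : ∀ i, 0 ≤ y0 i := fun i => abs_nonneg _
  refine ⟨y0, hy0P, hy0n, ?_⟩
  intro y hy
  set y' : Fin n → ℝ := fun i => |y i| with hy'
  have hy'P : y' ∈ P := hS y hy y' (fun i => by rw [hy']; simp)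
  have hy'n : ∀ i, 0 ≤ y' i := fun i => abs_nonneg _
  set t : Fin n → ℝ := fun i => (y' i - y0 i) / (1 + y0 i) with ht
  have hpos : ∀ i, 0 < 1 + y0 i := fun i => by linarith [hy0n i]
  have htlb : ∀ i, -1 < t i := by
    intro i
    rw [ht]
    dsimp only
    rw [lt_div_iff₀ (hpos i)]
    linarith [hy'n i]
  -- first order condition
  have key : ∀ ε : ℝ, 0 < ε → ε < 1 → ∑ i, x i * (t i / (1 + ε * t i)) ≤ 0 := by
    intro ε h0 h1
    have hmem : (fun i => (1 - ε) * y0 i + ε * y' i) ∈ P := by
      have := hconv hy0P hy'P (show (0:ℝ) ≤ 1 - ε by linarith) h0.le (by ring)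
      convert this using 1
      ext i
      simp
    have h := hmax hmem
    simp only [Set.mem_ofPred_eq] at h
    have e1 : ∑ i, x i * Real.log (1 + |ys i|) = ∑ i, x i * Real.log (1 + y0 i) := rfl
    have e2 : ∀ i, |(1 - ε) * y0 i + ε * y' i| = (1 - ε) * y0 i + ε * y' i := by
      intro i
      apply abs_of_nonneg
      have := mul_nonneg (show (0:ℝ) ≤ 1 - ε by linarith) (hy0n i)
      have := mul_nonneg h0.le (hy'n i)
      linarith
    have e3 : ∀ i, 1 + ((1 - ε) * y0 i + ε * y' i) = (1 + y0 i) * (1 + ε * t i) := by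
      intro i
      have := (hpos i).ne'
      rw [ht]
      field_simp
      ring
    have hp1 : ∀ i, 0 < 1 + ε * t i := by
      intro i
      nlinarith [htlb i]
    simp only [e2, e3] at h
    have h2 : ∑ i, x i * Real.log ((1 + y0 i) * (1 + ε * t i)) =
        ∑ i, x i * Real.log (1 + y0 i) + ∑ i, x i * Real.log (1 + ε * t i) := by
      rw [← Finset.sum_add_distrib]
      apply Finset.sum_congr rfl
      intro i _
      rw [Real.log_mul (hpos i).ne' (hp1 i).ne']
      ring
    rw [h2] at h
    have h3 : ∑ i, x i * Real.log (1 + ε * t i) ≤ 0 := by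
      have : ∑ i, x i * Real.log (1 + |ys i|) = ∑ i, x i * Real.log (1 + y0 i) := rfl
      linarith
    have h4 : ∑ i, x i * (ε * (t i / (1 + ε * t i))) ≤ ∑ i, x i * Real.log (1 + ε * t i) := by
      apply Finset.sum_le_sum
      intro i _
      apply mul_le_mul_of_nonneg_left _ (hx i)
      have := log_one_add_ge (u := ε * t i) (by nlinarith [htlb i])
      rw [← mul_div_assoc]
      exact this
    have h5 : ε * ∑ i, x i * (t i / (1 + ε * t i)) ≤ 0 := by
      rw [Finset.mul_sum]
      calc _ = ∑ i, x i * (ε * (t i / (1 + ε * t i))) := by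
            apply Finset.sum_congr rfl
            intro i _
            ring
        _ ≤ 0 := le_trans h4 h3
    by_contra hcon
    push Not at hcon
    nlinarith
  have hlim : Filter.Tendsto (fun ε : ℝ => ∑ i, x i * (t i / (1 + ε * t i)))
      (nhdsWithin 0 (Set.Ioo 0 1)) (nhds (∑ i, x i * t i)) := by
    have : ∑ i, x i * t i = ∑ i, x i * (t i / (1 + 0 * t i)) := by simp
    rw [this]
    apply Filter.Tendsto.mono_left _ nhdsWithin_le_nhds
    have hc : ContinuousAt (fun ε : ℝ => ∑ i, x i * (t i / (1 + ε * t i))) 0 := by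
      apply tendsto_finsetSum
      intro i _
      apply Filter.Tendsto.const_mul
      apply Filter.Tendsto.div tendsto_const_nhds
      · exact Continuous.tendsto (by fun_prop : Continuous (fun ε : ℝ => 1 + ε * t i)) 0
      · simp
    exact hc
  have hfo : ∑ i, x i * t i ≤ 0 := by
    have : (nhdsWithin (0:ℝ) (Set.Ioo 0 1)).NeBot := by
      rw [nhdsWithin_Ioo_eq_nhdsGT (by norm_num : (0:ℝ) < 1)]
      infer_instance
    apply le_of_tendsto hlim
    filter_upwards [self_mem_nhdsWithin] with ε hε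
    exact key ε hε.1 hε.2
  have e : ∑ i, x i / (1 + y0 i) * |y i| = ∑ i, x i * t i + ∑ i, x i * (y0 i / (1 + y0 i)) := by
    rw [← Finset.sum_add_distrib]
    apply Finset.sum_congr rfl
    intro i _
    have := (hpos i).ne'
    rw [ht]
    dsimp only
    rw [hy']
    dsimp only
    field_simp
    ring
  rw [e]
  have h6 : ∑ i, x i * (y0 i / (1 + y0 i)) ≤ ∑ i, x i := by
    apply Finset.sum_le_sum
    intro i _
    have : y0 i / (1 + y0 i) ≤ 1 := by
      rw [div_le_one (hpos i)]
      linarith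
    calc _ ≤ x i * 1 := mul_le_mul_of_nonneg_left this (hx i)
      _ = x i := mul_one _
  linarith

end Vale.Agent.H13.ED
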